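import Crest.Agent.S0066Aux.Host

set_option autoImplicit false

/-!
# Farness of the host matrix (helper for S0066)
-/

namespace Crest.Agent.S0066Aux

open Finset

open scoped Classical in
/-- pigeonhole used for all clean choices -/
lemma pigeon (Kr Kc : ℕ) (A B : Finset ℕ) (P : Finset (ℕ × ℕ))
    (h : P.card < (Kr - A.card) * (Kc - B.card)) :
    ∃ i j, i < Kr ∧ i ∉ A ∧ j < Kc ∧ j ∉ B ∧ (i, j) ∉ P := by
  have h1 : Kr - A.card ≤ (range Kr \ A).card := by
    have := Finset.le_card_sdiff A (range Kr)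
    simpa using this
  have h2 : Kc - B.card ≤ (range Kc \ B).card := by
    have := Finset.le_card_sdiff B (range Kc)
    simpa using this
  have h3 : P.card < ((range Kr \ A) ×ˢ (range Kc \ B)).card := by
    rw [card_product]
    exact lt_of_lt_of_le h (Nat.mul_le_mul h1 h2)
  obtain ⟨q, hq1, hq2⟩ := Finset.exists_mem_notMem_of_card_lt_card h3
  rw [mem_product, mem_sdiff, mem_sdiff, mem_range, mem_range] at hq1
  exact ⟨q.1, q.2, hq1.1.1, hq1.1.2, hq1.2.1, hq1.2.2, hq2⟩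

/-- Padding position `l` of group `g`. -/
def pad (D K g l : ℕ) : ℕ := Gs D K + 62 * g + l

/-- Block position. -/
def blk (D K k i : ℕ) : ℕ := sz D + k * K + i

/-- Group index of a position outside the tree. -/
def phi (D K r : ℕ) : ℕ := if r < Gs D K then (r - sz D) % K else (r - Gs D K) / 62

lemma phi_pad {D K g l : ℕ} (hl : l < 62) : phi D K (pad D K g l) = g := by
  unfold phi pad
  rw [if_neg (by omega)]
  omega

lemma blk_lt {D K k i : ℕ} (hk : k < 2 * D + 7) (hi : i < K) : blk D K k i < Gs D K := by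
  unfold blk Gs
  have : (k + 1) * K ≤ (2 * D + 7) * K := Nat.mul_le_mul_right _ hk
  have e : (k + 1) * K = k * K + K := by ring
  omega

lemma blk_ge {D K k i : ℕ} : sz D ≤ blk D K k i := by
  unfold blk; omega

lemma phi_blk {D K k i : ℕ} (hk : k < 2 * D + 7) (hi : i < K) : phi D K (blk D K k i) = i := by
  unfold phi
  rw [if_pos (blk_lt hk hi)]
  unfold blk
  have e : sz D + k * K + i - sz D = k * K + i := by omega
  rw [e, Nat.mul_comm k K, Nat.mul_add_mod, Nat.mod_eq_of_lt hi]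

lemma bk_blk {D K k i : ℕ} (hi : i < K) : bk D K (blk D K k i) = k := by
  unfold bk blk
  have e : sz D + k * K + i - sz D = k * K + i := by omega
  rw [e, Nat.mul_comm k K, Nat.mul_add_div (by omega), Nat.div_eq_of_lt hi]
  simp

/-- A copy in `Bn`, spelled out with the padding groups `g`, `g'`. -/
structure Match (D K : ℕ) (Bn : ℕ → ℕ → Prop) (a0 a1 a2 a3 b0 b1 b2 b3 g g' : ℕ) : Prop where
  a01 : a0 < a1
  a12 : a1 < a2
  a23 : a2 < a3
  a3G : a3 < Gs D K
  b01 : b0 < b1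
  b12 : b1 < b2
  b23 : b2 < b3
  b3G : b3 < Gs D K
  hg : g < K
  hg' : g' < K
  c00 : Bn a0 b0
  c01 : ¬ Bn a0 b1
  c02 : Bn a0 b2
  c03 : Bn a0 b3
  c10 : ¬ Bn a1 b0
  c11 : ¬ Bn a1 b1
  c12 : ¬ Bn a1 b2
  c13 : Bn a1 b3
  c20 : Bn a2 b0
  c21 : ¬ Bn a2 b1
  c22 : Bn a2 b2
  c23 : Bn a2 b3
  c30 : Bn a3 b0
  c31 : Bn a3 b1
  c32 : Bn a3 b2
  c33 : Bn a3 b3
  rp : ∀ l, l < 62 → ¬ Bn a0 (pad D K g' l) ∧ ¬ Bn a1 (pad D K g' l) ∧ ¬ Bn a2 (pad D K g' l) ∧
    ¬ Bn a3 (pad D K g' l)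
  pc : ∀ l, l < 62 → ¬ Bn (pad D K g l) b0 ∧ ¬ Bn (pad D K g l) b1 ∧ ¬ Bn (pad D K g l) b2 ∧
    ¬ Bn (pad D K g l) b3
  pp : ∀ l l', l < 62 → l' < 62 → Bn (pad D K g l) (pad D K g' l')

/-- The flips of `Bn` with respect to the host. -/
def Fp (D K : ℕ) (Bn : ℕ → ℕ → Prop) (r c : ℕ) : Prop := ¬ (Bn r c ↔ AP D K r c)

open scoped Classical in
/-- The finite set of flips. -/
noncomputable def flips (D K n : ℕ) (Bn : ℕ → ℕ → Prop) : Finset (ℕ × ℕ) :=
  (range n ×ˢ range n).filter (fun q => Fp D K Bn q.1 q.2)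

/-- The standing assumptions of the farness argument. -/
structure Ctx (D K u n : ℕ) (Bn : ℕ → ℕ → Prop) : Prop where
  hu : 0 < u
  hK : K = 4 * u
  hD : 2 ^ D = 4 * u
  hn : Gs D K + 62 * K ≤ n
  hfl : (flips D K n Bn).card < u * u
  hfree : ∀ a0 a1 a2 a3 b0 b1 b2 b3 g g', ¬ Match D K Bn a0 a1 a2 a3 b0 b1 b2 b3 g g'

variable {D K u n : ℕ} {Bn : ℕ → ℕ → Prop}

open scoped Classical in
/-- passive flips of a row -/
noncomputable def pcR (D K n : ℕ) (Bn : ℕ → ℕ → Prop) (r : ℕ) : Finset ℕ :=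
  (Ico (sz D) n).filter (fun c => Fp D K Bn r c)

open scoped Classical in
/-- passive flips of a column -/
noncomputable def pcC (D K n : ℕ) (Bn : ℕ → ℕ → Prop) (c : ℕ) : Finset ℕ :=
  (Ico (sz D) n).filter (fun r => Fp D K Bn r c)

/-- good rows -/
def GoodR (D K u n : ℕ) (Bn : ℕ → ℕ → Prop) (r : ℕ) : Prop := (pcR D K n Bn r).card < u

/-- good columns -/
def GoodC (D K u n : ℕ) (Bn : ℕ → ℕ → Prop) (c : ℕ) : Prop := (pcC D K n Bn c).card < u

open scoped Classical in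
/-- Clean choice of the groups. -/
lemma Ctx.clean (ctx : Ctx D K u n Bn) {a0 a1 a2 b0 b1 b2 : ℕ}
    (g0 : GoodR D K u n Bn a0) (g1 : GoodR D K u n Bn a1) (g2 : GoodR D K u n Bn a2)
    (g3 : GoodC D K u n Bn b0) (g4 : GoodC D K u n Bn b1) (g5 : GoodC D K u n Bn b2) :
    ∃ i j, i < K ∧ j < K ∧
      (∀ r' c', sz D ≤ r' → r' < n → sz D ≤ c' → c' < n → phi D K r' = i → phi D K c' = j →
        ¬ Fp D K Bn r' c') ∧
      (∀ c', sz D ≤ c' → c' < n → phi D K c' = j →
        ¬ Fp D K Bn a0 c' ∧ ¬ Fp D K Bn a1 c' ∧ ¬ Fp D K Bn a2 c') ∧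
      (∀ r', sz D ≤ r' → r' < n → phi D K r' = i →
        ¬ Fp D K Bn r' b0 ∧ ¬ Fp D K Bn r' b1 ∧ ¬ Fp D K Bn r' b2) := by
  set fR := fun r => phi D K r with hfR
  let A : Finset ℕ := ((pcC D K n Bn b0).image fR) ∪ ((pcC D K n Bn b1).image fR) ∪
    ((pcC D K n Bn b2).image fR)
  let B : Finset ℕ := ((pcR D K n Bn a0).image fR) ∪ ((pcR D K n Bn a1).image fR) ∪
    ((pcR D K n Bn a2).image fR)
  let P : Finset (ℕ × ℕ) :=
    ((flips D K n Bn).filter (fun q => sz D ≤ q.1 ∧ sz D ≤ q.2)).image (fun q => (fR q.1, fR q.2))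
  have hA : A.card + 3 ≤ 3 * u := by
    have h1 := card_union_le (((pcC D K n Bn b0).image fR) ∪ ((pcC D K n Bn b1).image fR))
      ((pcC D K n Bn b2).image fR)
    have h2 := card_union_le ((pcC D K n Bn b0).image fR) ((pcC D K n Bn b1).image fR)
    have h3 := card_image_le (s := pcC D K n Bn b0) (f := fR)
    have h4 := card_image_le (s := pcC D K n Bn b1) (f := fR)
    have h5 := card_image_le (s := pcC D K n Bn b2) (f := fR)
    unfold GoodC at g3 g4 g5
    change (((pcC D K n Bn b0).image fR) ∪ ((pcC D K n Bn b1).image fR) ∪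
      ((pcC D K n Bn b2).image fR)).card + 3 ≤ 3 * u
    omega
  have hB : B.card + 3 ≤ 3 * u := by
    have h1 := card_union_le (((pcR D K n Bn a0).image fR) ∪ ((pcR D K n Bn a1).image fR))
      ((pcR D K n Bn a2).image fR)
    have h2 := card_union_le ((pcR D K n Bn a0).image fR) ((pcR D K n Bn a1).image fR)
    have h3 := card_image_le (s := pcR D K n Bn a0) (f := fR)
    have h4 := card_image_le (s := pcR D K n Bn a1) (f := fR)
    have h5 := card_image_le (s := pcR D K n Bn a2) (f := fR)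
    unfold GoodR at g0 g1 g2
    change (((pcR D K n Bn a0).image fR) ∪ ((pcR D K n Bn a1).image fR) ∪
      ((pcR D K n Bn a2).image fR)).card + 3 ≤ 3 * u
    omega
  have hP : P.card < (K - A.card) * (K - B.card) := by
    have h1 : P.card ≤ (flips D K n Bn).card :=
      le_trans card_image_le (card_filter_le _ _)
    have h2 := ctx.hfl
    have h3 : u * u ≤ (K - A.card) * (K - B.card) := by
      apply Nat.mul_le_mul <;> (rw [ctx.hK]; omega)
    omega
  obtain ⟨i, j, hi, hiA, hj, hjB, hij⟩ := pigeon K K A B P hP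
  refine ⟨i, j, hi, hj, ?_, ?_, ?_⟩
  · intro r' c' hr hr' hc hc' hpr hpc hF
    apply hij
    refine mem_image.2 ⟨(r', c'), ?_, by simp [hfR, hpr, hpc]⟩
    refine mem_filter.2 ⟨?_, hr, hc⟩
    refine mem_filter.2 ⟨?_, hF⟩
    simp [hr', hc']
  · intro c' hc hc' hpc
    refine ⟨fun hF => hjB ?_, fun hF => hjB ?_, fun hF => hjB ?_⟩
    · refine mem_union_left _ (mem_union_left _ (mem_image.2 ⟨c', ?_, hpc⟩))
      exact mem_filter.2 ⟨mem_Ico.2 ⟨hc, hc'⟩, hF⟩
    · refine mem_union_left _ (mem_union_right _ (mem_image.2 ⟨c', ?_, hpc⟩))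
      exact mem_filter.2 ⟨mem_Ico.2 ⟨hc, hc'⟩, hF⟩
    · refine mem_union_right _ (mem_image.2 ⟨c', ?_, hpc⟩)
      exact mem_filter.2 ⟨mem_Ico.2 ⟨hc, hc'⟩, hF⟩
  · intro r' hr hr' hpr
    refine ⟨fun hF => hiA ?_, fun hF => hiA ?_, fun hF => hiA ?_⟩
    · refine mem_union_left _ (mem_union_left _ (mem_image.2 ⟨r', ?_, hpr⟩))
      exact mem_filter.2 ⟨mem_Ico.2 ⟨hr, hr'⟩, hF⟩
    · refine mem_union_left _ (mem_union_right _ (mem_image.2 ⟨r', ?_, hpr⟩))
      exact mem_filter.2 ⟨mem_Ico.2 ⟨hr, hr'⟩, hF⟩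
    · refine mem_union_right _ (mem_image.2 ⟨r', ?_, hpr⟩)
      exact mem_filter.2 ⟨mem_Ico.2 ⟨hr, hr'⟩, hF⟩

/-- If a cell is not flipped, `Bn` agrees with the host there. -/
lemma bn_of_not_flip {r c : ℕ} (h : ¬ Fp D K Bn r c) : Bn r c ↔ AP D K r c := by
  unfold Fp at h
  exact not_not.1 h

lemma pad_ge {g l : ℕ} : Gs D K ≤ pad D K g l := by unfold pad; omega

lemma pad_lt (hn : Gs D K + 62 * K ≤ n) {g l : ℕ} (hg : g < K) (hl : l < 62) :
    pad D K g l < n := by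
  unfold pad; omega

/-- Assembling a copy from clean groups. -/
lemma Ctx.near_copy (ctx : Ctx D K u n Bn) {a0 a1 a2 a3 b0 b1 b2 b3 i j : ℕ}
    (a01 : a0 < a1) (a12 : a1 < a2) (a23 : a2 < a3) (b01 : b0 < b1) (b12 : b1 < b2) (b23 : b2 < b3)
    (ha3 : sz D ≤ a3) (ha3' : a3 < Gs D K) (hb3 : sz D ≤ b3) (hb3' : b3 < Gs D K)
    (pa3 : phi D K a3 = i) (pb3 : phi D K b3 = j) (hi : i < K) (hj : j < K)
    (cPP : ∀ r' c', sz D ≤ r' → r' < n → sz D ≤ c' → c' < n → phi D K r' = i → phi D K c' = j →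
        ¬ Fp D K Bn r' c')
    (cR : ∀ c', sz D ≤ c' → c' < n → phi D K c' = j →
        ¬ Fp D K Bn a0 c' ∧ ¬ Fp D K Bn a1 c' ∧ ¬ Fp D K Bn a2 c')
    (cC : ∀ r', sz D ≤ r' → r' < n → phi D K r' = i →
        ¬ Fp D K Bn r' b0 ∧ ¬ Fp D K Bn r' b1 ∧ ¬ Fp D K Bn r' b2)
    (c00 : Bn a0 b0) (c01 : ¬ Bn a0 b1) (c02 : Bn a0 b2)
    (c10 : ¬ Bn a1 b0) (c11 : ¬ Bn a1 b1) (c12 : ¬ Bn a1 b2)
    (c20 : Bn a2 b0) (c21 : ¬ Bn a2 b1) (c22 : Bn a2 b2)
    (e03 : AP D K a0 b3) (e13 : AP D K a1 b3) (e23 : AP D K a2 b3)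
    (e30 : AP D K a3 b0) (e31 : AP D K a3 b1) (e32 : AP D K a3 b2) (e33 : AP D K a3 b3) : False := by
  have hn := ctx.hn
  have hG := sz_le_Gs (D := D) (K := K)
  have hb3n : b3 < n := by omega
  have ha3n : a3 < n := by omega
  have hp : ∀ {g l : ℕ}, g < K → l < 62 → sz D ≤ pad D K g l ∧ pad D K g l < n :=
    fun hg hl => ⟨le_trans hG pad_ge, pad_lt hn hg hl⟩
  have nGa0 : a0 < Gs D K := by omega
  have nGa1 : a1 < Gs D K := by omega
  have nGa2 : a2 < Gs D K := by omega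
  have nGb0 : b0 < Gs D K := by omega
  have nGb1 : b1 < Gs D K := by omega
  have nGb2 : b2 < Gs D K := by omega
  refine ctx.hfree a0 a1 a2 a3 b0 b1 b2 b3 i j
    { a01 := a01, a12 := a12, a23 := a23, a3G := ha3', b01 := b01, b12 := b12, b23 := b23,
      b3G := hb3', hg := hi, hg' := hj, c00 := c00, c01 := c01, c02 := c02, c10 := c10,
      c11 := c11, c12 := c12, c20 := c20, c21 := c21, c22 := c22,
      c03 := (bn_of_not_flip (cR b3 hb3 hb3n pb3).1).2 e03,
      c13 := (bn_of_not_flip (cR b3 hb3 hb3n pb3).2.1).2 e13,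
      c23 := (bn_of_not_flip (cR b3 hb3 hb3n pb3).2.2).2 e23,
      c30 := (bn_of_not_flip (cC a3 ha3 ha3n pa3).1).2 e30,
      c31 := (bn_of_not_flip (cC a3 ha3 ha3n pa3).2.1).2 e31,
      c32 := (bn_of_not_flip (cC a3 ha3 ha3n pa3).2.2).2 e32,
      c33 := (bn_of_not_flip (cPP a3 b3 ha3 ha3n hb3 hb3n pa3 pb3)).2 e33,
      rp := ?_, pc := ?_, pp := ?_ }
  · intro l hl
    obtain ⟨h1, h2⟩ := hp hj hl
    have hph := phi_pad (D := D) (K := K) (g := j) hl
    have key := cR _ h1 h2 hph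
    have nA : ∀ {r : ℕ}, r < Gs D K → ¬ AP D K r (pad D K j l) := by
      intro r hr e
      have := (AP_pad_right (pad_ge)).1 e
      omega
    refine ⟨fun e => nA nGa0 ((bn_of_not_flip key.1).1 e),
      fun e => nA nGa1 ((bn_of_not_flip key.2.1).1 e),
      fun e => nA nGa2 ((bn_of_not_flip key.2.2).1 e),
      fun e => nA ha3' ((bn_of_not_flip (cPP _ _ ha3 ha3n h1 h2 pa3 hph)).1 e)⟩
  · intro l hl
    obtain ⟨h1, h2⟩ := hp hi hl
    have hph := phi_pad (D := D) (K := K) (g := i) hl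
    have key := cC _ h1 h2 hph
    have nA : ∀ {c : ℕ}, c < Gs D K → ¬ AP D K (pad D K i l) c := by
      intro c hc e
      have := (AP_pad_left (pad_ge)).1 e
      omega
    refine ⟨fun e => nA nGb0 ((bn_of_not_flip key.1).1 e),
      fun e => nA nGb1 ((bn_of_not_flip key.2.1).1 e),
      fun e => nA nGb2 ((bn_of_not_flip key.2.2).1 e),
      fun e => nA hb3' ((bn_of_not_flip (cPP _ _ h1 h2 hb3 hb3n hph pb3)).1 e)⟩
  · intro l l' hl hl'
    obtain ⟨h1, h2⟩ := hp hi hl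
    obtain ⟨h3, h4⟩ := hp hj hl'
    have hph := phi_pad (D := D) (K := K) (g := i) hl
    have hph' := phi_pad (D := D) (K := K) (g := j) hl'
    exact (bn_of_not_flip (cPP _ _ h1 h2 h3 h4 hph hph')).2 ((AP_pad_left pad_ge).2 pad_ge)

lemma blk_lt_blk {k k' i : ℕ} (hk : k < k') (hK : 0 < K) : blk D K k i < blk D K k' i := by
  unfold blk
  have := (Nat.mul_lt_mul_right hK).2 hk
  omega

lemma Ctx.K_pos (ctx : Ctx D K u n Bn) : 0 < K := by
  have := ctx.hK
  have := ctx.hu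
  omega

/-- The guard: a flip in a protected zero block gives a copy. -/
lemma Ctx.guard_aux (ctx : Ctx D K u n Bn) {r c k₁ k₂ k₃ k₄ : ℕ}
    (hk : (k₁ = 1 ∧ k₂ = 2 ∧ k₃ = 3 ∧ k₄ = 4) ∨ (k₁ = 2 ∧ k₂ = 1 ∧ k₃ = 4 ∧ k₄ = 3))
    (hr : r < sz D) (hc : c < sz D)
    (gr : GoodR D K u n Bn r) (gc : GoodC D K u n Bn c)
    (s1 : sideP (lvl D r) (lab D 0 r) k₂) (s2 : sideP (lvl D r) (lab D 0 r) k₄)
    (s3 : sideP (lvl D c) (lab D 0 c) k₁) (s4 : sideP (lvl D c) (lab D 0 c) k₃)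
    (hb : Bn r c) : False := by
  obtain ⟨i, j, hi, hj, cPP, cR, cC⟩ := ctx.clean gr gr gr gc gc gc
  have hKpos := ctx.K_pos
  have hn := ctx.hn
  have hG := sz_le_Gs (D := D) (K := K)
  have hk7 : ∀ k, k ≤ 4 → k < 2 * D + 7 := fun k hk => by omega
  have bi : ∀ k, k ≤ 4 → sz D ≤ blk D K k i ∧ blk D K k i < Gs D K ∧ blk D K k i < n ∧
      phi D K (blk D K k i) = i ∧ bk D K (blk D K k i) = k := fun k hk' =>
    ⟨blk_ge, blk_lt (hk7 k hk') hi, by have := blk_lt (D := D) (hk7 k hk') hi; omega,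
      phi_blk (hk7 k hk') hi, bk_blk hi⟩
  have bj : ∀ k, k ≤ 4 → sz D ≤ blk D K k j ∧ blk D K k j < Gs D K ∧ blk D K k j < n ∧
      phi D K (blk D K k j) = j ∧ bk D K (blk D K k j) = k := fun k hk' =>
    ⟨blk_ge, blk_lt (hk7 k hk') hj, by have := blk_lt (D := D) (hk7 k hk') hj; omega,
      phi_blk (hk7 k hk') hj, bk_blk hj⟩
  have h14 : k₁ ≤ 4 ∧ k₂ ≤ 4 ∧ k₃ ≤ 4 ∧ k₄ ≤ 4 := by omega
  obtain ⟨i00, i01, i02, i03, i04⟩ := bi 0 (by omega)
  obtain ⟨i10, i11, i12, i13, i14⟩ := bi k₁ h14.1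
  obtain ⟨i20, i21, i22, i23, i24⟩ := bi k₃ h14.2.2.1
  obtain ⟨j00, j01, j02, j03, j04⟩ := bj 0 (by omega)
  obtain ⟨j10, j11, j12, j13, j14⟩ := bj k₂ h14.2.1
  obtain ⟨j20, j21, j22, j23, j24⟩ := bj k₄ h14.2.2.2
  have hBB : ∀ {k k' : ℕ} (_ : sz D ≤ blk D K k i) (_ : blk D K k i < Gs D K)
      (_ : sz D ≤ blk D K k' j) (_ : blk D K k' j < Gs D K),
      AP D K (blk D K k i) (blk D K k' j) ↔ blockP k k' := by
    intro k k' h1 h2 h3 h4
    rw [AP_bb h1 h2 h3 h4, bk_blk hi, bk_blk hj]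
  refine ctx.near_copy (a0 := r) (a1 := blk D K 0 i) (a2 := blk D K k₁ i) (a3 := blk D K k₃ i)
    (b0 := c) (b1 := blk D K 0 j) (b2 := blk D K k₂ j) (b3 := blk D K k₄ j) (i := i) (j := j)
    (by have := i00; omega)
    (blk_lt_blk (by omega) hKpos) (blk_lt_blk (by omega) hKpos)
    (by have := j00; omega)
    (blk_lt_blk (by omega) hKpos) (blk_lt_blk (by omega) hKpos)
    i20 i21 j20 j21 i23 j23 hi hj cPP ?_ ?_ hb ?_ ?_ ?_ ?_ ?_ ?_ ?_ ?_ ?_ ?_ ?_ ?_ ?_ ?_ ?_
  · intro c' h1 h2 h3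
    exact ⟨(cR c' h1 h2 h3).1, cPP _ _ i00 i02 h1 h2 i03 h3, cPP _ _ i10 i12 h1 h2 i13 h3⟩
  · intro r' h1 h2 h3
    exact ⟨(cC r' h1 h2 h3).1, cPP _ _ h1 h2 j00 j02 h3 j03, cPP _ _ h1 h2 j10 j12 h3 j13⟩
  · -- (r, M)
    intro e
    have := (bn_of_not_flip (cR _ j00 j02 j03).1).1 e
    rw [AP_tb hr j00 j01, j04] at this
    exact not_sideP_zero this
  · -- (r, k₂)
    refine (bn_of_not_flip (cR _ j10 j12 j13).1).2 ?_
    rw [AP_tb hr j10 j11, j14]
    exact s1
  · -- (M, c)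
    intro e
    have := (bn_of_not_flip (cC _ i00 i02 i03).1).1 e
    rw [AP_bt i00 i01 hc, i04] at this
    exact not_sideP_zero this
  · -- (M, M)
    intro e
    have := (bn_of_not_flip (cPP _ _ i00 i02 j00 j02 i03 j03)).1 e
    rw [hBB i00 i01 j00 j01] at this
    unfold blockP at this
    omega
  · -- (M, k₂)
    intro e
    have := (bn_of_not_flip (cPP _ _ i00 i02 j10 j12 i03 j13)).1 e
    rw [hBB i00 i01 j10 j11] at this
    unfold blockP at this
    omega
  · -- (k₁, c)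
    refine (bn_of_not_flip (cC _ i10 i12 i13).1).2 ?_
    rw [AP_bt i10 i11 hc, i14]
    exact s3
  · -- (k₁, M)
    intro e
    have := (bn_of_not_flip (cPP _ _ i10 i12 j00 j02 i13 j03)).1 e
    rw [hBB i10 i11 j00 j01] at this
    unfold blockP at this
    omega
  · -- (k₁, k₂)
    refine (bn_of_not_flip (cPP _ _ i10 i12 j10 j12 i13 j13)).2 ?_
    rw [hBB i10 i11 j10 j11]
    unfold blockP
    omega
  · -- (r, k₄)
    rw [AP_tb hr j20 j21, j24]
    exact s2
  · -- (M, k₄)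
    rw [hBB i00 i01 j20 j21]
    unfold blockP
    omega
  · -- (k₁, k₄)
    rw [hBB i10 i11 j20 j21]
    unfold blockP
    omega
  · -- (k₃, c)
    rw [AP_bt i20 i21 hc, i24]
    exact s4
  · -- (k₃, M)
    rw [hBB i20 i21 j00 j01]
    unfold blockP
    omega
  · -- (k₃, k₂)
    rw [hBB i20 i21 j10 j11]
    unfold blockP
    omega
  · -- (k₃, k₄)
    rw [hBB i20 i21 j20 j21]
    unfold blockP
    omega

/-- Cells of the zero blocks between good rows and columns are not flipped. -/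
lemma Ctx.guard (ctx : Ctx D K u n Bn) {r c : ℕ} (hr : r < sz D) (hc : c < sz D)
    (gr : GoodR D K u n Bn r) (gc : GoodC D K u n Bn c)
    (hpar : lvl D r % 2 ≠ lvl D c % 2 ∨ (lvl D r = 0 ∧ lvl D c = 0))
    (hA : ¬ AP D K r c) : ¬ Fp D K Bn r c := by
  intro hF
  have hb : Bn r c := by
    unfold Fp at hF
    tauto
  by_cases hp : lvl D r % 2 = 0 ∧ (lvl D c = 0 ∨ lvl D c % 2 = 1)
  · exact ctx.guard_aux (k₁ := 1) (k₂ := 2) (k₃ := 3) (k₄ := 4) (Or.inl ⟨rfl, rfl, rfl, rfl⟩)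
      hr hc gr gc ((sideP_even (by omega)).2 hp.1) ((sideP_even (by omega)).2 hp.1)
      ((sideP_odd (by omega)).2 hp.2) ((sideP_odd (by omega)).2 hp.2) hb
  · have hp' : lvl D c % 2 = 0 ∧ (lvl D r = 0 ∨ lvl D r % 2 = 1) := by omega
    exact ctx.guard_aux (k₁ := 2) (k₂ := 1) (k₃ := 4) (k₄ := 3) (Or.inr ⟨rfl, rfl, rfl, rfl⟩)
      hr hc gr gc ((sideP_odd (by omega)).2 hp'.2) ((sideP_odd (by omega)).2 hp'.2)
      ((sideP_even (by omega)).2 hp'.1) ((sideP_even (by omega)).2 hp'.1) hb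

/-- A rectangle of brackets around a cell with value `0` in `Bn` gives a copy. -/
lemma Ctx.rect (ctx : Ctx D K u n Bn) {t₁ x t₂ z₁ y z₂ l b : ℕ}
    (ht : t₂ < sz D) (hz : z₂ < sz D) (h1 : t₁ < x) (h2 : x < t₂) (h3 : z₁ < y) (h4 : y < z₂)
    (g1 : GoodR D K u n Bn t₁) (g2 : GoodR D K u n Bn x) (g3 : GoodR D K u n Bn t₂)
    (g4 : GoodC D K u n Bn z₁) (g5 : GoodC D K u n Bn y) (g6 : GoodC D K u n Bn z₂)
    (c00 : Bn t₁ z₁) (c02 : Bn t₁ z₂) (c20 : Bn t₂ z₁) (c22 : Bn t₂ z₂) (c11 : ¬ Bn x y)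
    (hl1 : 1 ≤ l) (hl2 : l ≤ D + 1) (hb : b ≤ 1)
    (lt1 : lvl D t₁ = l) (lt2 : lvl D t₂ = l) (lz1 : lvl D z₁ = l) (lz2 : lvl D z₂ = l)
    (lx : lvl D x + 1 = l) (ly : lvl D y + 1 = l)
    (bx : lab D 0 x = b) (by' : lab D 0 y = b) : False := by
  obtain ⟨i, j, hi, hj, cPP, cR, cC⟩ := ctx.clean g1 g2 g3 g4 g5 g6
  have hG := sz_le_Gs (D := D) (K := K)
  have hn := ctx.hn
  -- zero cells
  have zero : ∀ {r c : ℕ}, r < sz D → c < sz D → GoodR D K u n Bn r → GoodC D K u n Bn c →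
      lvl D r ≠ lvl D c → lvl D r % 2 ≠ lvl D c % 2 → ¬ Bn r c := by
    intro r c hr hc gr gc hne hpar e
    have nA : ¬ AP D K r c := fun e' => hne (tA_lvl _ _ _ ((AP_tt hr hc).1 e'))
    exact nA ((bn_of_not_flip (ctx.guard hr hc gr gc (Or.inl hpar) nA)).1 e)
  set k := 5 + 2 * (l - 1) + b with hkdef
  have hk : k < 2 * D + 7 := by omega
  have hk5 : 5 ≤ k := by omega
  have a3a := blk_lt (D := D) hk hi
  have b3a := blk_lt (D := D) hk hj
  have hPVt : ∀ {c : ℕ}, lvl D c = l → PV (lvl D c) (lab D 0 c) (k - 5) := by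
    intro c hc
    unfold PV
    omega
  have hPVx : ∀ {c : ℕ}, lvl D c + 1 = l → lab D 0 c = b → PV (lvl D c) (lab D 0 c) (k - 5) := by
    intro c hc hc'
    unfold PV
    omega
  refine ctx.near_copy (a0 := t₁) (a1 := x) (a2 := t₂) (a3 := blk D K k i)
    (b0 := z₁) (b1 := y) (b2 := z₂) (b3 := blk D K k j) (i := i) (j := j)
    h1 h2 (lt_of_lt_of_le ht blk_ge) h3 h4 (lt_of_lt_of_le hz blk_ge)
    blk_ge a3a blk_ge b3a (phi_blk hk hi) (phi_blk hk hj) hi hj cPP cR cC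
    c00 (zero (by omega) (by omega) g1 g5 (by omega) (by omega)) c02
    (zero (by omega) (by omega) g2 g4 (by omega) (by omega)) c11
    (zero (by omega) (by omega) g2 g6 (by omega) (by omega))
    c20 (zero (by omega) (by omega) g3 g5 (by omega) (by omega)) c22 ?_ ?_ ?_ ?_ ?_ ?_ ?_
  · rw [AP_tb (by omega) blk_ge b3a, bk_blk hj, sideP_pin hk5]; exact hPVt lt1
  · rw [AP_tb (by omega) blk_ge b3a, bk_blk hj, sideP_pin hk5]; exact hPVx lx bx
  · rw [AP_tb (by omega) blk_ge b3a, bk_blk hj, sideP_pin hk5]; exact hPVt lt2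
  · rw [AP_bt blk_ge a3a (by omega), bk_blk hi, sideP_pin hk5]; exact hPVt lz1
  · rw [AP_bt blk_ge a3a (by omega), bk_blk hi, sideP_pin hk5]; exact hPVx ly by'
  · rw [AP_bt blk_ge a3a (by omega), bk_blk hi, sideP_pin hk5]; exact hPVt lz2
  · rw [AP_bb blk_ge a3a blk_ge b3a, bk_blk hi, bk_blk hj]
    unfold blockP
    omega

open scoped Classical in
/-- bad rows -/
noncomputable def BadR (D K u n : ℕ) (Bn : ℕ → ℕ → Prop) : Finset ℕ :=
  (range (sz D)).filter (fun r => ¬ GoodR D K u n Bn r)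

open scoped Classical in
/-- bad columns -/
noncomputable def BadC (D K u n : ℕ) (Bn : ℕ → ℕ → Prop) : Finset ℕ :=
  (range (sz D)).filter (fun c => ¬ GoodC D K u n Bn c)

open scoped Classical in
/-- number of bad rows and columns in an interval -/
noncomputable def cnt (D K u n : ℕ) (Bn : ℕ → ℕ → Prop) (o s : ℕ) : ℕ :=
  ((BadR D K u n Bn).filter (fun r => o ≤ r ∧ r < o + s)).card +
  ((BadC D K u n Bn).filter (fun r => o ≤ r ∧ r < o + s)).card

lemma cnt_le_total (o s : ℕ) :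
    cnt D K u n Bn o s ≤ (BadR D K u n Bn).card + (BadC D K u n Bn).card := by
  unfold cnt
  have h1 := card_filter_le (BadR D K u n Bn) (fun r => o ≤ r ∧ r < o + s)
  have h2 := card_filter_le (BadC D K u n Bn) (fun r => o ≤ r ∧ r < o + s)
  omega

open scoped Classical in
lemma card_filter_split (T : Finset ℕ) {o s o' s' p q : ℕ} (h1 : o + s ≤ o') (h2 : p ≤ o)
    (h3 : o' + s' ≤ p + q) :
    (T.filter (fun r => o ≤ r ∧ r < o + s)).card + (T.filter (fun r => o' ≤ r ∧ r < o' + s')).card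
      ≤ (T.filter (fun r => p ≤ r ∧ r < p + q)).card := by
  rw [← card_union_of_disjoint]
  · apply card_le_card
    intro r hr
    rw [mem_union, mem_filter, mem_filter] at hr
    rw [mem_filter]
    rcases hr with hr | hr
    · exact ⟨hr.1, by omega, by omega⟩
    · exact ⟨hr.1, by omega, by omega⟩
  · rw [disjoint_left]
    intro r hr hr'
    rw [mem_filter] at hr hr'
    omega

lemma cnt_split {o s o' s' p q : ℕ} (h1 : o + s ≤ o') (h2 : p ≤ o) (h3 : o' + s' ≤ p + q) :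
    cnt D K u n Bn o s + cnt D K u n Bn o' s' ≤ cnt D K u n Bn p q := by
  unfold cnt
  have a1 := card_filter_split (BadR D K u n Bn) h1 h2 h3
  have a2 := card_filter_split (BadC D K u n Bn) h1 h2 h3
  omega

open scoped Classical in
lemma cnt_of_bad_rows {p d o s : ℕ} (h : ∀ r, p ≤ r → r < p + d → ¬ GoodR D K u n Bn r)
    (h1 : p + d ≤ sz D) (h2 : o ≤ p) (h3 : p + d ≤ o + s) : d ≤ cnt D K u n Bn o s := by
  unfold cnt
  have : (Ico p (p + d)).card ≤ ((BadR D K u n Bn).filter (fun r => o ≤ r ∧ r < o + s)).card := by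
    apply card_le_card
    intro r hr
    rw [mem_Ico] at hr
    rw [mem_filter]
    refine ⟨?_, by omega, by omega⟩
    unfold BadR
    rw [mem_filter, mem_range]
    exact ⟨by omega, h r hr.1 hr.2⟩
  simp only [Nat.card_Ico] at this
  omega

open scoped Classical in
lemma cnt_of_bad_cols {p d o s : ℕ} (h : ∀ r, p ≤ r → r < p + d → ¬ GoodC D K u n Bn r)
    (h1 : p + d ≤ sz D) (h2 : o ≤ p) (h3 : p + d ≤ o + s) : d ≤ cnt D K u n Bn o s := by
  unfold cnt
  have : (Ico p (p + d)).card ≤ ((BadC D K u n Bn).filter (fun r => o ≤ r ∧ r < o + s)).card := by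
    apply card_le_card
    intro r hr
    rw [mem_Ico] at hr
    rw [mem_filter]
    refine ⟨?_, by omega, by omega⟩
    unfold BadC
    rw [mem_filter, mem_range]
    exact ⟨by omega, h r hr.1 hr.2⟩
  simp only [Nat.card_Ico] at this
  omega

lemma Br_bounds {a o r : ℕ} (h : Br a o r) : o ≤ r ∧ r < o + sz a := by
  have := sz_ge a
  unfold Br at h
  omega

/-- `E a o`: a good flipped cell among the brackets of the node. -/
def EE (D K u n : ℕ) (Bn : ℕ → ℕ → Prop) (a o : ℕ) : Prop :=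
  ∃ t z, Br a o t ∧ Br a o z ∧ GoodR D K u n Bn t ∧ GoodC D K u n Bn z ∧ Fp D K Bn t z

/-- One step up the tree: a good flipped cell in a child kills all rectangles at the parent. -/
lemma Ctx.step (ctx : Ctx D K u n Bn) {a o b₀ o' c : ℕ} (hnode : IsNodeIn D 0 (a + 1) o b₀)
    (hchild : IsNodeIn D 0 a o' c) (hc : c ≤ 1)
    (hpos : o + 2 ^ (a + 1) ≤ o' ∧ o' + sz a + 2 ^ (a + 1) ≤ o + sz (a + 1))
    (hE : EE D K u n Bn a o') {t₁ t₂ z₁ z₂ : ℕ}
    (ht1 : o ≤ t₁ ∧ t₁ < o + 2 ^ (a + 1)) (ht2 : o + sz (a + 1) ≤ t₂ + 2 ^ (a + 1) ∧ t₂ < o + sz (a + 1))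
    (hz1 : o ≤ z₁ ∧ z₁ < o + 2 ^ (a + 1)) (hz2 : o + sz (a + 1) ≤ z₂ + 2 ^ (a + 1) ∧ z₂ < o + sz (a + 1))
    (g1 : GoodR D K u n Bn t₁) (g3 : GoodR D K u n Bn t₂)
    (g4 : GoodC D K u n Bn z₁) (g6 : GoodC D K u n Bn z₂)
    (c00 : ¬ Fp D K Bn t₁ z₁) (c02 : ¬ Fp D K Bn t₁ z₂) (c20 : ¬ Fp D K Bn t₂ z₁)
    (c22 : ¬ Fp D K Bn t₂ z₂) : False := by
  obtain ⟨x, y, hx, hy, g2, g5, hF⟩ := hE
  have hfit := node_fit hnode
  have hfit' := node_fit hchild
  have bx := Br_bounds hx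
  have by' := Br_bounds hy
  have b1 : Br (a + 1) o t₁ := Or.inl ht1
  have b2 : Br (a + 1) o t₂ := Or.inr ht2
  have b3 : Br (a + 1) o z₁ := Or.inl hz1
  have b4 : Br (a + 1) o z₂ := Or.inr hz2
  have hl := node_lvl_lab hnode
  have hl' := node_lvl_lab hchild
  have ht := node_tA hnode
  have ht' := node_tA hchild
  have htS : t₂ < sz D := by omega
  have hzS : z₂ < sz D := by omega
  have hxS : x < sz D := by omega
  have hyS : y < sz D := by omega
  have corner : ∀ {r c : ℕ}, Br (a + 1) o r → Br (a + 1) o c → ¬ Fp D K Bn r c → Bn r c := by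
    intro r c hr hc hF
    have b5 := Br_bounds hr
    have b6 := Br_bounds hc
    exact (bn_of_not_flip hF).2 ((AP_tt (by omega) (by omega)).2 (ht _ _ hr hc))
  refine ctx.rect (l := a + 2) (b := c) htS hzS (t₁ := t₁) (x := x) (t₂ := t₂) (z₁ := z₁) (y := y)
    (z₂ := z₂) (by omega) (by omega) (by omega) (by omega) g1 g2 g3 g4 g5 g6 (corner b1 b3 c00)
    (corner b1 b4 c02) (corner b2 b3 c20) (corner b2 b4 c22) ?_ (by omega) ?_ hc
    (hl _ b1).1 (hl _ b2).1 (hl _ b3).1 (hl _ b4).1 ?_ ?_ (hl' _ hx).2 (hl' _ hy).2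
  · intro e
    have hAP : AP D K x y := (AP_tt hxS hyS).2 (ht' _ _ hx hy)
    exact hF ⟨fun _ => hAP, fun _ => e⟩
  · have := IsNodeIn_level_le hnode
    omega
  · rw [(hl' _ hx).1]
  · rw [(hl' _ hy).1]

/-- The induction along the tree. -/
lemma Ctx.main_ind (ctx : Ctx D K u n Bn) (a : ℕ) : ∀ o b, IsNodeIn D 0 a o b →
    EE D K u n Bn a o ∨ 2 ^ a ≤ cnt D K u n Bn o (sz a) := by
  induction a with
  | zero =>
    intro o b hnode
    have hfit := node_fit hnode
    have h3 : sz 0 = 3 := rfl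
    rw [h3] at hfit
    simp only [pow_zero]
    by_cases hall : GoodR D K u n Bn o ∧ GoodR D K u n Bn (o + 1) ∧ GoodR D K u n Bn (o + 2) ∧
        GoodC D K u n Bn o ∧ GoodC D K u n Bn (o + 1) ∧ GoodC D K u n Bn (o + 2)
    · obtain ⟨g1, g2, g3, g4, g5, g6⟩ := hall
      have bo : Br 0 o o := Or.inl (by simp)
      have bo2 : Br 0 o (o + 2) := Or.inr (by rw [h3]; simp)
      by_cases h00 : Fp D K Bn o o
      · exact Or.inl ⟨_, _, bo, bo, g1, g4, h00⟩
      by_cases h02 : Fp D K Bn o (o + 2)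
      · exact Or.inl ⟨_, _, bo, bo2, g1, g6, h02⟩
      by_cases h20 : Fp D K Bn (o + 2) o
      · exact Or.inl ⟨_, _, bo2, bo, g3, g4, h20⟩
      by_cases h22 : Fp D K Bn (o + 2) (o + 2)
      · exact Or.inl ⟨_, _, bo2, bo2, g3, g6, h22⟩
      exfalso
      have hl := node_lvl_lab hnode
      have ht := node_tA hnode
      have hleaf := node_leaf hnode rfl
      have corner : ∀ {r c : ℕ}, Br 0 o r → Br 0 o c → ¬ Fp D K Bn r c → Bn r c := by
        intro r c hr hc hF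
        have b5 := Br_bounds hr
        have b6 := Br_bounds hc
        rw [h3] at b5 b6
        exact (bn_of_not_flip hF).2 ((AP_tt (by omega) (by omega)).2 (ht _ _ hr hc))
      have hS1 : o + 1 < sz D := by omega
      have nA : ¬ AP D K (o + 1) (o + 1) := by
        intro e
        have := tA_lvl_pos _ _ _ ((AP_tt hS1 hS1).1 e)
        omega
      have c11 : ¬ Bn (o + 1) (o + 1) := by
        intro e
        exact nA ((bn_of_not_flip (ctx.guard hS1 hS1 g2 g5 (Or.inr ⟨hleaf.1, hleaf.1⟩) nA)).1 e)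
      exact ctx.rect (l := 1) (b := 0) (t₁ := o) (x := o + 1) (t₂ := o + 2) (z₁ := o) (y := o + 1)
        (z₂ := o + 2) (by omega) (by omega) (by omega) (by omega) (by omega) (by omega)
        g1 g2 g3 g4 g5 g6 (corner bo bo (by simpa using h00)) (corner bo bo2 h02)
        (corner bo2 bo h20) (corner bo2 bo2 h22) c11 (by omega) (by omega) (by omega)
        (hl _ bo).1 (hl _ bo2).1 (hl _ bo).1 (hl _ bo2).1 (by omega) (by omega) hleaf.2 hleaf.2
    · right
      -- some position is bad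
      have key : ∃ r, o ≤ r ∧ r < o + 3 ∧ (¬ GoodR D K u n Bn r ∨ ¬ GoodC D K u n Bn r) := by
        by_contra hno
        push Not at hno
        exact hall ⟨(hno o (by omega) (by omega)).1, (hno (o + 1) (by omega) (by omega)).1,
          (hno (o + 2) (by omega) (by omega)).1, (hno o (by omega) (by omega)).2,
          (hno (o + 1) (by omega) (by omega)).2, (hno (o + 2) (by omega) (by omega)).2⟩
      obtain ⟨r, hr1, hr2, hr3⟩ := key
      rw [h3]
      rcases hr3 with hr3 | hr3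
      · refine le_trans (by omega) (cnt_of_bad_rows (p := r) (d := 1) ?_ (by omega) hr1 (by omega))
        intro r' h1 h2
        have : r' = r := by omega
        rwa [this]
      · refine le_trans (by omega) (cnt_of_bad_cols (p := r) (d := 1) ?_ (by omega) hr1 (by omega))
        intro r' h1 h2
        have : r' = r := by omega
        rwa [this]
  | succ a ih =>
    intro o b hnode
    by_contra hno
    push Not at hno
    obtain ⟨hE, hlt⟩ := hno
    have hfit := node_fit hnode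
    have hsz := sz_succ a
    have hge := sz_ge a
    have hL := node_childL hnode a rfl
    have hR := node_childR hnode a rfl
    have ih1 := ih _ _ hL
    have ih2 := ih _ _ hR
    have hsum : cnt D K u n Bn (o + 2 ^ (a + 1)) (sz a) +
        cnt D K u n Bn (o + 2 ^ (a + 1) + sz a) (sz a) ≤ cnt D K u n Bn o (sz (a + 1)) :=
      cnt_split (by omega) (by omega) (by omega)
    have hpow : 2 ^ (a + 1) = 2 * 2 ^ a := by ring
    -- good representatives
    have rt1 : ∃ r, o ≤ r ∧ r < o + 2 ^ (a + 1) ∧ GoodR D K u n Bn r := by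
      by_contra hh
      push Not at hh
      have := cnt_of_bad_rows (D := D) (K := K) (u := u) (n := n) (Bn := Bn)
        (p := o) (d := 2 ^ (a + 1)) (o := o) (s := sz (a + 1))
        (fun r h1 h2 => hh r h1 h2) (by omega) (by omega) (by omega)
      omega
    have rt2 : ∃ r, o + sz (a + 1) ≤ r + 2 ^ (a + 1) ∧ r < o + sz (a + 1) ∧ GoodR D K u n Bn r := by
      by_contra hh
      push Not at hh
      have := cnt_of_bad_rows (D := D) (K := K) (u := u) (n := n) (Bn := Bn)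
        (p := o + sz (a + 1) - 2 ^ (a + 1)) (d := 2 ^ (a + 1)) (o := o) (s := sz (a + 1))
        (fun r h1 h2 => hh r (by omega) (by omega)) (by omega) (by omega) (by omega)
      omega
    have rz1 : ∃ r, o ≤ r ∧ r < o + 2 ^ (a + 1) ∧ GoodC D K u n Bn r := by
      by_contra hh
      push Not at hh
      have := cnt_of_bad_cols (D := D) (K := K) (u := u) (n := n) (Bn := Bn)
        (p := o) (d := 2 ^ (a + 1)) (o := o) (s := sz (a + 1))
        (fun r h1 h2 => hh r h1 h2) (by omega) (by omega) (by omega)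
      omega
    have rz2 : ∃ r, o + sz (a + 1) ≤ r + 2 ^ (a + 1) ∧ r < o + sz (a + 1) ∧ GoodC D K u n Bn r := by
      by_contra hh
      push Not at hh
      have := cnt_of_bad_cols (D := D) (K := K) (u := u) (n := n) (Bn := Bn)
        (p := o + sz (a + 1) - 2 ^ (a + 1)) (d := 2 ^ (a + 1)) (o := o) (s := sz (a + 1))
        (fun r h1 h2 => hh r (by omega) (by omega)) (by omega) (by omega) (by omega)
      omega
    obtain ⟨t₁, ht1, ht1', g1⟩ := rt1
    obtain ⟨t₂, ht2, ht2', g3⟩ := rt2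
    obtain ⟨z₁, hz1, hz1', g4⟩ := rz1
    obtain ⟨z₂, hz2, hz2', g6⟩ := rz2
    have nF : ∀ {r c : ℕ}, Br (a + 1) o r → Br (a + 1) o c → GoodR D K u n Bn r →
        GoodC D K u n Bn c → ¬ Fp D K Bn r c := by
      intro r c hr hc gr gc hF
      exact hE ⟨r, c, hr, hc, gr, gc, hF⟩
    have b1 : Br (a + 1) o t₁ := Or.inl ⟨ht1, ht1'⟩
    have b2 : Br (a + 1) o t₂ := Or.inr ⟨ht2, ht2'⟩
    have b3 : Br (a + 1) o z₁ := Or.inl ⟨hz1, hz1'⟩
    have b4 : Br (a + 1) o z₂ := Or.inr ⟨hz2, hz2'⟩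
    by_cases hE1 : EE D K u n Bn a (o + 2 ^ (a + 1))
    · exact ctx.step hnode hL (by omega) (by omega) hE1 ⟨ht1, ht1'⟩ ⟨ht2, ht2'⟩ ⟨hz1, hz1'⟩
        ⟨hz2, hz2'⟩ g1 g3 g4 g6 (nF b1 b3 g1 g4) (nF b1 b4 g1 g6) (nF b2 b3 g3 g4) (nF b2 b4 g3 g6)
    by_cases hE2 : EE D K u n Bn a (o + 2 ^ (a + 1) + sz a)
    · exact ctx.step hnode hR (by omega) (by omega) hE2 ⟨ht1, ht1'⟩ ⟨ht2, ht2'⟩ ⟨hz1, hz1'⟩
        ⟨hz2, hz2'⟩ g1 g3 g4 g6 (nF b1 b3 g1 g4) (nF b1 b4 g1 g6) (nF b2 b3 g3 g4) (nF b2 b4 g3 g6)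
    have c1 := ih1.resolve_left hE1
    have c2 := ih2.resolve_left hE2
    omega

open scoped Classical in
lemma Ctx.bad_rows_card (ctx : Ctx D K u n Bn) : (BadR D K u n Bn).card * u ≤
    ((flips D K n Bn).filter (fun q => q.1 < sz D ∧ sz D ≤ q.2)).card := by
  have hG := sz_le_Gs (D := D) (K := K)
  have hn := ctx.hn
  have h1 : (BadR D K u n Bn).card * u ≤ ((BadR D K u n Bn).sigma (fun r => pcR D K n Bn r)).card := by
    rw [card_sigma]
    have := Finset.card_nsmul_le_sum (BadR D K u n Bn) (fun r => (pcR D K n Bn r).card) u (by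
      intro r hr
      unfold BadR at hr
      rw [mem_filter] at hr
      have := hr.2
      unfold GoodR at this
      omega)
    simpa [smul_eq_mul] using this
  refine le_trans h1 ?_
  apply card_le_card_of_injOn (fun q => (q.1, q.2))
  · intro q hq
    have hq' := mem_sigma.1 hq
    have h2 := hq'.1
    unfold BadR at h2
    rw [mem_coe, mem_filter, mem_range] at *
    have h3 := mem_sigma.1 hq
    have h4 := h3.2
    unfold pcR at h4
    rw [mem_filter, mem_Ico] at h4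
    refine ⟨?_, ?_, h4.1.1⟩
    · unfold flips
      rw [mem_filter, mem_product, mem_range, mem_range]
      refine ⟨⟨?_, h4.1.2⟩, h4.2⟩
      have := (mem_filter.1 h3.1).1
      rw [mem_range] at this
      show q.1 < n
      omega
    · have := (mem_filter.1 h3.1).1
      rwa [mem_range] at this
  · intro q _ q' _ h
    simp only [Prod.mk.injEq] at h
    exact Sigma.ext h.1 (heq_of_eq h.2)

open scoped Classical in
lemma Ctx.bad_cols_card (ctx : Ctx D K u n Bn) : (BadC D K u n Bn).card * u ≤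
    ((flips D K n Bn).filter (fun q => sz D ≤ q.1 ∧ q.2 < sz D)).card := by
  have hG := sz_le_Gs (D := D) (K := K)
  have hn := ctx.hn
  have h1 : (BadC D K u n Bn).card * u ≤ ((BadC D K u n Bn).sigma (fun r => pcC D K n Bn r)).card := by
    rw [card_sigma]
    have := Finset.card_nsmul_le_sum (BadC D K u n Bn) (fun r => (pcC D K n Bn r).card) u (by
      intro r hr
      unfold BadC at hr
      rw [mem_filter] at hr
      have := hr.2
      unfold GoodC at this
      omega)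
    simpa [smul_eq_mul] using this
  refine le_trans h1 ?_
  apply card_le_card_of_injOn (fun q => (q.2, q.1))
  · intro q hq
    rw [mem_coe, mem_filter]
    have h3 := mem_sigma.1 hq
    have h4 := h3.2
    unfold pcC at h4
    rw [mem_filter, mem_Ico] at h4
    have h5 := (mem_filter.1 h3.1).1
    rw [mem_range] at h5
    refine ⟨?_, h4.1.1, h5⟩
    unfold flips
    rw [mem_filter, mem_product, mem_range, mem_range]
    refine ⟨⟨h4.1.2, ?_⟩, h4.2⟩
    show q.1 < n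
    omega
  · intro q _ q' _ h
    simp only [Prod.mk.injEq] at h
    exact Sigma.ext h.2 (heq_of_eq h.1)

open scoped Classical in
/-- There are few bad rows and columns. -/
lemma Ctx.bad_lt (ctx : Ctx D K u n Bn) :
    (BadR D K u n Bn).card + (BadC D K u n Bn).card < u := by
  have h1 := ctx.bad_rows_card
  have h2 := ctx.bad_cols_card
  have h3 : ((flips D K n Bn).filter (fun q => q.1 < sz D ∧ sz D ≤ q.2)).card +
      ((flips D K n Bn).filter (fun q => sz D ≤ q.1 ∧ q.2 < sz D)).card ≤ (flips D K n Bn).card := by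
    rw [← card_union_of_disjoint]
    · exact card_le_card (union_subset (filter_subset _ _) (filter_subset _ _))
    · rw [disjoint_left]
      intro q hq hq'
      rw [mem_filter] at hq hq'
      omega
  have h4 := ctx.hfl
  have h5 : ((BadR D K u n Bn).card + (BadC D K u n Bn).card) * u < u * u := by
    rw [add_mul]
    omega
  exact Nat.lt_of_mul_lt_mul_right h5

open scoped Classical in
/-- The whole farness argument: the assumptions are contradictory. -/
theorem Ctx.false (ctx : Ctx D K u n Bn) : False := by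
  have hu := ctx.hu
  have hD := ctx.hD
  have hbad := ctx.bad_lt
  have hG := sz_le_Gs (D := D) (K := K)
  have hn := ctx.hn
  cases D with
  | zero =>
    simp at hD
    omega
  | succ D' =>
    have hsz := sz_succ D'
    have hge := sz_ge D'
    set S := sz (D' + 1) with hS
    let fr : ℕ → ℕ := fun r => if r < 4 * u then r else r - (S - 4 * u)
    let A : Finset ℕ := (BadR (D' + 1) K u n Bn).image fr
    let B : Finset ℕ := (BadC (D' + 1) K u n Bn).image fr
    let P : Finset (ℕ × ℕ) := (flips (D' + 1) K n Bn).image (fun q => (fr q.1, fr q.2))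
    have hA : A.card ≤ (BadR (D' + 1) K u n Bn).card := card_image_le
    have hB : B.card ≤ (BadC (D' + 1) K u n Bn).card := card_image_le
    have hP : P.card < (4 * u - A.card) * (4 * u - B.card) := by
      have h1 : P.card ≤ (flips (D' + 1) K n Bn).card := card_image_le
      have h2 := ctx.hfl
      have h3 : u * u ≤ (4 * u - A.card) * (4 * u - B.card) := by
        apply Nat.mul_le_mul <;> omega
      omega
    obtain ⟨i, j, hi, hiA, hj, hjB, hij⟩ := pigeon _ _ A B P hP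
    have hfr1 : ∀ {x : ℕ}, x < 4 * u → fr x = x := fun {x} hx => if_pos hx
    have hfr2 : ∀ {x : ℕ}, x < 4 * u → fr (S - 4 * u + x) = x := by
      intro x hx
      show (if S - 4 * u + x < 4 * u then S - 4 * u + x else S - 4 * u + x - (S - 4 * u)) = x
      rw [if_neg (by omega)]
      omega
    have gR : ∀ {x : ℕ}, x < S → fr x = i → GoodR (D' + 1) K u n Bn x := by
      intro x hx hfx
      by_contra hgood
      apply hiA
      refine mem_image.2 ⟨x, ?_, hfx⟩
      unfold BadR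
      rw [mem_filter, mem_range]
      exact ⟨hx, hgood⟩
    have gC : ∀ {x : ℕ}, x < S → fr x = j → GoodC (D' + 1) K u n Bn x := by
      intro x hx hfx
      by_contra hgood
      apply hjB
      refine mem_image.2 ⟨x, ?_, hfx⟩
      unfold BadC
      rw [mem_filter, mem_range]
      exact ⟨hx, hgood⟩
    have nF : ∀ {x y : ℕ}, x < S → y < S → fr x = i → fr y = j → ¬ Fp (D' + 1) K Bn x y := by
      intro x y hx hy hfx hfy hF
      apply hij
      refine mem_image.2 ⟨(x, y), ?_, by simp [hfx, hfy]⟩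
      unfold flips
      rw [mem_filter, mem_product, mem_range, mem_range]
      exact ⟨⟨by omega, by omega⟩, hF⟩
    have hroot : IsNodeIn (D' + 1) 0 (D' + 1) 0 0 := IsNodeIn.self _ _
    have hL := node_childL hroot D' rfl
    have hR := node_childR hroot D' rfl
    have hi' : i < 2 ^ (D' + 1) := by omega
    have hj' : j < 2 ^ (D' + 1) := by omega
    have g1 : GoodR (D' + 1) K u n Bn i := gR (by omega) (hfr1 hi)
    have g3 : GoodR (D' + 1) K u n Bn (S - 4 * u + i) := gR (by omega) (hfr2 hi)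
    have g4 : GoodC (D' + 1) K u n Bn j := gC (by omega) (hfr1 hj)
    have g6 : GoodC (D' + 1) K u n Bn (S - 4 * u + j) := gC (by omega) (hfr2 hj)
    have n1 := nF (x := i) (y := j) (by omega) (by omega) (hfr1 hi) (hfr1 hj)
    have n2 := nF (x := i) (y := S - 4 * u + j) (by omega) (by omega) (hfr1 hi) (hfr2 hj)
    have n3 := nF (x := S - 4 * u + i) (y := j) (by omega) (by omega) (hfr2 hi) (hfr1 hj)
    have n4 := nF (x := S - 4 * u + i) (y := S - 4 * u + j) (by omega) (by omega) (hfr2 hi) (hfr2 hj)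
    have notE : ∀ {o' c : ℕ}, IsNodeIn (D' + 1) 0 D' o' c → c ≤ 1 →
        0 + 2 ^ (D' + 1) ≤ o' ∧ o' + sz D' + 2 ^ (D' + 1) ≤ 0 + sz (D' + 1) →
        ¬ EE (D' + 1) K u n Bn D' o' := by
      intro o' c hchild hc hpos hE
      refine ctx.step (o := 0) hroot hchild hc hpos hE (t₁ := i) (t₂ := S - 4 * u + i) (z₁ := j)
        (z₂ := S - 4 * u + j) ?_ ?_ ?_ ?_ g1 g3 g4 g6 n1 n2 n3 n4
      · omega
      · omega
      · omega
      · omega
    have c1 := (ctx.main_ind D' _ _ hL).resolve_left (notE hL (by omega) (by omega))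
    have c2 := (ctx.main_ind D' _ _ hR).resolve_left (notE hR (by omega) (by omega))
    have hsum : cnt (D' + 1) K u n Bn (0 + 2 ^ (D' + 1)) (sz D') +
        cnt (D' + 1) K u n Bn (0 + 2 ^ (D' + 1) + sz D') (sz D') ≤
          cnt (D' + 1) K u n Bn 0 (sz (D' + 1)) :=
      cnt_split (by omega) (by omega) (by omega)
    have hc := cnt_le_total (D := D' + 1) (K := K) (u := u) (n := n) (Bn := Bn) 0 (sz (D' + 1))
    have hpow : 2 ^ (D' + 1) = 2 * 2 ^ D' := by ring
    omega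

end Crest.Agent.S0066Aux
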