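import Crest.Agent.S0066Aux.Tree

set_option autoImplicit false

/-!
# The host matrix for S0066

Positions below `sz D` are the tree, positions in `[sz D, Gs D K)` are cut in blocks of size `K`
(block `0`: `M`, blocks `1,2`: `T₀,T₁`, blocks `3,4`: `Q₀,Q₁`, blocks `≥ 5`: pins), and positions
from `Gs D K` on are the padding.
-/

namespace Crest.Agent.S0066Aux

/-- start of the padding -/
def Gs (D K : ℕ) : ℕ := sz D + (2 * D + 7) * K

/-- block index -/
def bk (D K r : ℕ) : ℕ := (r - sz D) / K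

/-- value between a tree position with level `lv` and label `lb` and block `k` -/
def sideP (lv lb k : ℕ) : Prop :=
  ((k = 1 ∨ k = 3) ∧ (lv = 0 ∨ lv % 2 = 1)) ∨
  ((k = 2 ∨ k = 4) ∧ lv % 2 = 0) ∨
  (5 ≤ k ∧ (lv = (k - 5) / 2 + 1 ∨ (lv + 1 = (k - 5) / 2 + 1 ∧ lb = (k - 5) % 2)))

/-- value between two blocks -/
def blockP (k k' : ℕ) : Prop :=
  (k = 0 ∧ (k' = 3 ∨ k' = 4)) ∨ (k' = 0 ∧ (k = 3 ∨ k = 4)) ∨
  (1 ≤ k ∧ k ≤ 4 ∧ 1 ≤ k' ∧ k' ≤ 4 ∧ (k + k') % 2 = 1) ∨ (5 ≤ k ∧ k = k')

/-- The host matrix, as a relation on natural numbers. -/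
def AP (D K r c : ℕ) : Prop :=
  (Gs D K ≤ r ∧ Gs D K ≤ c) ∨
  (r < sz D ∧ c < sz D ∧ tA D r c) ∨
  (r < sz D ∧ sz D ≤ c ∧ c < Gs D K ∧ sideP (lvl D r) (lab D 0 r) (bk D K c)) ∨
  (sz D ≤ r ∧ r < Gs D K ∧ c < sz D ∧ sideP (lvl D c) (lab D 0 c) (bk D K r)) ∨
  (sz D ≤ r ∧ r < Gs D K ∧ sz D ≤ c ∧ c < Gs D K ∧ blockP (bk D K r) (bk D K c))

variable {D K : ℕ}

lemma blockP_symm {k k' : ℕ} (h : blockP k k') : blockP k' k := by
  unfold blockP at h ⊢
  omega

lemma AP_symm {r c : ℕ} (h : AP D K r c) : AP D K c r := by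
  unfold AP at h ⊢
  rcases h with h | h | h | h | h
  · exact Or.inl ⟨h.2, h.1⟩
  · exact Or.inr (Or.inl ⟨h.2.1, h.1, tA_symm _ _ _ h.2.2⟩)
  · exact Or.inr (Or.inr (Or.inr (Or.inl ⟨h.2.1, h.2.2.1, h.1, h.2.2.2⟩)))
  · exact Or.inr (Or.inr (Or.inl ⟨h.2.2.1, h.1, h.2.1, h.2.2.2⟩))
  · exact Or.inr (Or.inr (Or.inr (Or.inr
      ⟨h.2.2.1, h.2.2.2.1, h.1, h.2.1, blockP_symm h.2.2.2.2⟩)))

lemma AP_comm {r c : ℕ} : AP D K r c ↔ AP D K c r := ⟨AP_symm, AP_symm⟩

lemma sz_le_Gs : sz D ≤ Gs D K := by unfold Gs; omega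

lemma AP_pad_left {r c : ℕ} (hr : Gs D K ≤ r) : AP D K r c ↔ Gs D K ≤ c := by
  have := sz_le_Gs (D := D) (K := K)
  unfold AP
  constructor
  · rintro (h | h | h | h | h)
    · exact h.2
    · omega
    · omega
    · omega
    · omega
  · intro h; exact Or.inl ⟨hr, h⟩

lemma AP_pad_right {r c : ℕ} (hc : Gs D K ≤ c) : AP D K r c ↔ Gs D K ≤ r := by
  rw [AP_comm, AP_pad_left hc]

lemma AP_tt {r c : ℕ} (hr : r < sz D) (hc : c < sz D) : AP D K r c ↔ tA D r c := by
  have := sz_le_Gs (D := D) (K := K)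
  unfold AP
  constructor
  · rintro (h | h | h | h | h)
    · omega
    · exact h.2.2
    · omega
    · omega
    · omega
  · intro h; exact Or.inr (Or.inl ⟨hr, hc, h⟩)

lemma AP_tb {r c : ℕ} (hr : r < sz D) (hc : sz D ≤ c) (hc' : c < Gs D K) :
    AP D K r c ↔ sideP (lvl D r) (lab D 0 r) (bk D K c) := by
  have := sz_le_Gs (D := D) (K := K)
  unfold AP
  constructor
  · rintro (h | h | h | h | h)
    · omega
    · omega
    · exact h.2.2.2
    · omega
    · omega
  · intro h; exact Or.inr (Or.inr (Or.inl ⟨hr, hc, hc', h⟩))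

lemma AP_bt {r c : ℕ} (hr : sz D ≤ r) (hr' : r < Gs D K) (hc : c < sz D) :
    AP D K r c ↔ sideP (lvl D c) (lab D 0 c) (bk D K r) := by
  rw [AP_comm, AP_tb hc hr hr']

lemma AP_bb {r c : ℕ} (hr : sz D ≤ r) (hr' : r < Gs D K) (hc : sz D ≤ c) (hc' : c < Gs D K) :
    AP D K r c ↔ blockP (bk D K r) (bk D K c) := by
  have := sz_le_Gs (D := D) (K := K)
  unfold AP
  constructor
  · rintro (h | h | h | h | h)
    · omega
    · omega
    · omega
    · omega
    · exact h.2.2.2.2
  · intro h; exact Or.inr (Or.inr (Or.inr (Or.inr ⟨hr, hr', hc, hc', h⟩)))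

lemma bk_mono {r r' : ℕ} (h : r ≤ r') : bk D K r ≤ bk D K r' := by
  unfold bk
  exact Nat.div_le_div_right (by omega)

/-- The core part of a copy: `16` cells, in increasing rows `a` and columns `b`. -/
structure CoreCopy (D K a0 a1 a2 a3 b0 b1 b2 b3 : ℕ) : Prop where
  a01 : a0 < a1
  a12 : a1 < a2
  a23 : a2 < a3
  b01 : b0 < b1
  b12 : b1 < b2
  b23 : b2 < b3
  c00 : AP D K a0 b0
  c01 : ¬ AP D K a0 b1
  c02 : AP D K a0 b2
  c03 : AP D K a0 b3
  c10 : ¬ AP D K a1 b0
  c11 : ¬ AP D K a1 b1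
  c12 : ¬ AP D K a1 b2
  c13 : AP D K a1 b3
  c20 : AP D K a2 b0
  c21 : ¬ AP D K a2 b1
  c22 : AP D K a2 b2
  c23 : AP D K a2 b3
  c30 : AP D K a3 b0
  c31 : AP D K a3 b1
  c32 : AP D K a3 b2
  c33 : AP D K a3 b3

variable {a0 a1 a2 a3 b0 b1 b2 b3 : ℕ}

lemma CoreCopy.symm (h : CoreCopy D K a0 a1 a2 a3 b0 b1 b2 b3) :
    CoreCopy D K b0 b1 b2 b3 a0 a1 a2 a3 where
  a01 := h.b01
  a12 := h.b12
  a23 := h.b23
  b01 := h.a01
  b12 := h.a12
  b23 := h.a23
  c00 := AP_symm h.c00
  c01 := fun e => h.c10 (AP_symm e)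
  c02 := AP_symm h.c20
  c03 := AP_symm h.c30
  c10 := fun e => h.c01 (AP_symm e)
  c11 := fun e => h.c11 (AP_symm e)
  c12 := fun e => h.c21 (AP_symm e)
  c13 := AP_symm h.c31
  c20 := AP_symm h.c02
  c21 := fun e => h.c12 (AP_symm e)
  c22 := AP_symm h.c22
  c23 := AP_symm h.c32
  c30 := AP_symm h.c03
  c31 := AP_symm h.c13
  c32 := AP_symm h.c23
  c33 := AP_symm h.c33

lemma CoreCopy.w_lt (h : CoreCopy D K a0 a1 a2 a3 b0 b1 b2 b3) : b3 < Gs D K := by
  by_contra hw
  push Not at hw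
  have h1 := (AP_pad_right hw).1 h.c03
  have h2 := (AP_pad_left h1).1 h.c00
  have h3 : Gs D K ≤ b1 := by have := h.b01; omega
  exact h.c01 ((AP_pad_left h1).2 h3)

lemma CoreCopy.p_lt (h : CoreCopy D K a0 a1 a2 a3 b0 b1 b2 b3) : a3 < Gs D K := h.symm.w_lt

/-- Pin value as a function of the pin index. -/
def PV (l t i : ℕ) : Prop := l = i / 2 + 1 ∨ (l + 1 = i / 2 + 1 ∧ t = i % 2)

lemma sideP_pin {l t k : ℕ} (hk : 5 ≤ k) : sideP l t k ↔ PV l t (k - 5) := by
  unfold sideP PV
  constructor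
  · rintro (h | h | h)
    · omega
    · omega
    · exact h.2
  · intro h; exact Or.inr (Or.inr ⟨hk, h⟩)

lemma sideP_odd {l t k : ℕ} (hk : k = 1 ∨ k = 3) : sideP l t k ↔ (l = 0 ∨ l % 2 = 1) := by
  unfold sideP
  constructor
  · rintro (h | h | h)
    · exact h.2
    · omega
    · omega
  · intro h; exact Or.inl ⟨hk, h⟩

lemma sideP_even {l t k : ℕ} (hk : k = 2 ∨ k = 4) : sideP l t k ↔ l % 2 = 0 := by
  unfold sideP
  constructor
  · rintro (h | h | h)
    · omega
    · exact h.2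
    · omega
  · intro h; exact Or.inr (Or.inl ⟨hk, h⟩)

lemma not_sideP_zero {l t : ℕ} : ¬ sideP l t 0 := by
  unfold sideP
  omega

lemma arith_pins (i1 i2 i3 l0 l1 l3 t0 t1 t3 : ℕ) (m12 : i1 ≤ i2) (m23 : i2 ≤ i3)
    (e10 : ¬ PV l0 t0 i1) (e20 : PV l0 t0 i2) (e21 : ¬ PV l1 t1 i2) (e31 : PV l1 t1 i3)
    (e13 : PV l3 t3 i1) (e23 : PV l3 t3 i2) (e33 : PV l3 t3 i3) (e30 : PV l0 t0 i3) : False := by
  unfold PV at *
  omega

/-- Arithmetic core of `CoreCopy.w_ge`: no row of a copy has all its rows in blocks. -/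
lemma arith_rows_blocks (k0 k1 k2 k3 l0 l1 l3 t0 t1 t3 : ℕ) (m01 : k0 ≤ k1) (m12 : k1 ≤ k2)
    (m23 : k2 ≤ k3) (e00 : sideP l0 t0 k0) (e01 : ¬ sideP l1 t1 k0)
    (e10 : ¬ sideP l0 t0 k1) (e11 : ¬ sideP l1 t1 k1) (e13 : sideP l3 t3 k1)
    (e20 : sideP l0 t0 k2) (e21 : ¬ sideP l1 t1 k2) (e23 : sideP l3 t3 k2)
    (e30 : sideP l0 t0 k3) (e31 : sideP l1 t1 k3) (e33 : sideP l3 t3 k3) : False := by
  by_cases hk : 5 ≤ k1
  · rw [sideP_pin hk] at e10 e13
    rw [sideP_pin (by omega)] at e20 e21 e23 e30 e31 e33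
    exact arith_pins _ _ _ _ _ _ _ _ _ (by omega) (by omega) e10 e20 e21 e31 e13 e23 e33 e30
  · have h0 : k0 ≠ 0 := by rintro rfl; exact not_sideP_zero e00
    have h1 : (k0 = 1 ∨ k0 = 3) ∨ (k0 = 2 ∨ k0 = 4) := by omega
    have h2 : (k1 = 1 ∨ k1 = 3) ∨ (k1 = 2 ∨ k1 = 4) := by omega
    rcases h1 with h1 | h1 <;> rcases h2 with h2 | h2
    · rw [sideP_odd h1] at e00 e01
      rw [sideP_odd h2] at e10 e11
      omega
    · rw [sideP_odd h1] at e00 e01
      rw [sideP_even h2] at e10 e11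
      omega
    · rw [sideP_even h1] at e00 e01
      rw [sideP_odd h2] at e10 e11
      omega
    · rw [sideP_even h1] at e00 e01
      rw [sideP_even h2] at e10 e11
      omega

/-- The last column of a copy does not lie in the tree. -/
lemma CoreCopy.w_ge (h : CoreCopy D K a0 a1 a2 a3 b0 b1 b2 b3) : sz D ≤ b3 := by
  by_contra hw
  push Not at hw
  have hG := sz_le_Gs (D := D) (K := K)
  have hp := h.p_lt
  have ha01 := h.a01
  have ha12 := h.a12
  have ha23 := h.a23
  have hb01 := h.b01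
  have hb12 := h.b12
  have hb23 := h.b23
  by_cases h0 : a0 < sz D
  · have e03 := (AP_tt h0 hw).1 h.c03
    have e00 := (AP_tt h0 (by omega)).1 h.c00
    by_cases h1 : a1 < sz D
    · have e13 := (AP_tt h1 hw).1 h.c13
      exact h.c10 ((AP_tt h1 (by omega)).2 (tA_trans3 _ _ _ _ _ e13 e03 e00))
    · have hl := (tA_lvl _ _ _ e03).symm.trans (tA_lvl _ _ _ e00)
      have hb := (tA_lab D 0 _ _ e03).symm.trans (tA_lab D 0 _ _ e00)
      have e13 := (AP_bt (by omega) (by omega) hw).1 h.c13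
      apply h.c10
      rw [AP_bt (by omega) (by omega) (by omega)]
      rw [← hl, ← hb]
      exact e13
  · -- all rows are in the blocks
    have e00 := (AP_bt (r := a0) (c := b0) (by omega) (by omega) (by omega)).1 h.c00
    have e01 : ¬ sideP (lvl D b1) (lab D 0 b1) (bk D K a0) :=
      fun e => h.c01 ((AP_bt (r := a0) (c := b1) (by omega) (by omega) (by omega)).2 e)
    have e10 : ¬ sideP (lvl D b0) (lab D 0 b0) (bk D K a1) :=
      fun e => h.c10 ((AP_bt (r := a1) (c := b0) (by omega) (by omega) (by omega)).2 e)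
    have e11 : ¬ sideP (lvl D b1) (lab D 0 b1) (bk D K a1) :=
      fun e => h.c11 ((AP_bt (r := a1) (c := b1) (by omega) (by omega) (by omega)).2 e)
    have e13 := (AP_bt (r := a1) (c := b3) (by omega) (by omega) (by omega)).1 h.c13
    have e20 := (AP_bt (r := a2) (c := b0) (by omega) (by omega) (by omega)).1 h.c20
    have e21 : ¬ sideP (lvl D b1) (lab D 0 b1) (bk D K a2) :=
      fun e => h.c21 ((AP_bt (r := a2) (c := b1) (by omega) (by omega) (by omega)).2 e)
    have e23 := (AP_bt (r := a2) (c := b3) (by omega) (by omega) (by omega)).1 h.c23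
    have e30 := (AP_bt (r := a3) (c := b0) (by omega) (by omega) (by omega)).1 h.c30
    have e31 := (AP_bt (r := a3) (c := b1) (by omega) (by omega) (by omega)).1 h.c31
    have e33 := (AP_bt (r := a3) (c := b3) (by omega) (by omega) (by omega)).1 h.c33
    have m01 : bk D K a0 ≤ bk D K a1 := bk_mono (by omega)
    have m12 : bk D K a1 ≤ bk D K a2 := bk_mono (by omega)
    have m23 : bk D K a2 ≤ bk D K a3 := bk_mono (by omega)
    exact arith_rows_blocks _ _ _ _ _ _ _ _ _ _ m01 m12 m23 e00 e01 e10 e11 e13 e20 e21 e23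
      e30 e31 e33

lemma CoreCopy.p_ge (h : CoreCopy D K a0 a1 a2 a3 b0 b1 b2 b3) : sz D ≤ a3 := h.symm.w_ge

/-- The last column of a copy does not lie in the block `M`. -/
lemma CoreCopy.w_ne (h : CoreCopy D K a0 a1 a2 a3 b0 b1 b2 b3) : bk D K b3 ≠ 0 := by
  intro h0
  have hG := sz_le_Gs (D := D) (K := K)
  have hp := h.p_lt
  have hw := h.w_lt
  have hwS := h.w_ge
  have ha01 := h.a01
  have ha12 := h.a12
  have ha23 := h.a23
  have hb01 := h.b01
  have hb12 := h.b12
  have hb23 := h.b23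
  have h1 : sz D ≤ a0 := by
    by_contra ha
    have := (AP_tb (by omega) hwS hw).1 h.c03
    rw [h0] at this
    exact not_sideP_zero this
  have e03 := (AP_bb h1 (by omega) hwS hw).1 h.c03
  rw [h0] at e03
  have hb1 : b1 < sz D := by
    by_contra hb
    have hk1 : bk D K b1 = 0 := by
      have : bk D K b1 ≤ bk D K b3 := bk_mono (by omega)
      omega
    apply h.c01
    rw [AP_bb h1 (by omega) (by omega) (by omega), hk1]
    exact e03
  have e00 := (AP_bt (r := a0) (c := b0) (by omega) (by omega) (by omega)).1 h.c00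
  have e10 : ¬ sideP (lvl D b0) (lab D 0 b0) (bk D K a1) :=
    fun e => h.c10 ((AP_bt (r := a1) (c := b0) (by omega) (by omega) (by omega)).2 e)
  have e21 : ¬ sideP (lvl D b1) (lab D 0 b1) (bk D K a2) :=
    fun e => h.c21 ((AP_bt (r := a2) (c := b1) (by omega) (by omega) (by omega)).2 e)
  have e31 := (AP_bt (r := a3) (c := b1) (by omega) (by omega) (by omega)).1 h.c31
  have m01 : bk D K a0 ≤ bk D K a1 := bk_mono (by omega)
  have m12 : bk D K a1 ≤ bk D K a2 := bk_mono (by omega)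
  have m23 : bk D K a2 ≤ bk D K a3 := bk_mono (by omega)
  have e33 := (AP_bb (r := a3) (c := b3) (by omega) (by omega) hwS hw).1 h.c33
  rw [h0] at e33
  have hk3 : bk D K a3 ≤ 4 := by unfold blockP at e33; omega
  have hk0 : 3 ≤ bk D K a0 := by unfold blockP at e03; omega
  by_cases he : bk D K a0 = bk D K a1
  · rw [he] at e00; exact e10 e00
  · have : bk D K a2 = bk D K a3 := by omega
    rw [this] at e21
    exact e21 e31

lemma CoreCopy.p_ne (h : CoreCopy D K a0 a1 a2 a3 b0 b1 b2 b3) : bk D K a3 ≠ 0 := h.symm.w_ne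

/-- Rows in one block are twins. -/
lemma AP_same_block {r r' c : ℕ} (hr : sz D ≤ r) (hr1 : r < Gs D K) (hr' : sz D ≤ r')
    (hr1' : r' < Gs D K) (hk : bk D K r = bk D K r') : AP D K r c ↔ AP D K r' c := by
  by_cases hc : c < sz D
  · rw [AP_bt hr hr1 hc, AP_bt hr' hr1' hc, hk]
  · by_cases hc' : c < Gs D K
    · rw [AP_bb hr hr1 (by omega) hc', AP_bb hr' hr1' (by omega) hc', hk]
    · rw [AP_pad_right (by omega), AP_pad_right (by omega)]
      omega

/-- The main case: the last row and column of a copy are pins of the same block. -/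
lemma CoreCopy.pin_case (h : CoreCopy D K a0 a1 a2 a3 b0 b1 b2 b3) (hk : 5 ≤ bk D K a3)
    (hkk : bk D K a3 = bk D K b3) : a1 = a0 + 1 ∧ b1 = b0 + 1 := by
  have hG := sz_le_Gs (D := D) (K := K)
  have hp := h.p_lt
  have hw := h.w_lt
  have hwS := h.w_ge
  have hpS := h.p_ge
  have ha01 := h.a01
  have ha12 := h.a12
  have ha23 := h.a23
  have hb01 := h.b01
  have hb12 := h.b12
  have hb23 := h.b23
  have ha2 : a2 < sz D := by
    by_contra ha
    have e23 := (AP_bb (r := a2) (c := b3) (by omega) (by omega) hwS hw).1 h.c23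
    have : bk D K a2 = bk D K a3 := by unfold blockP at e23; omega
    exact h.c21 ((AP_same_block (by omega) (by omega) hpS hp this).2 h.c31)
  have hb2 : b2 < sz D := by
    by_contra ha
    have e23 := (AP_bb (r := b2) (c := a3) (by omega) (by omega) hpS hp).1 (AP_symm h.c32)
    have : bk D K b2 = bk D K b3 := by unfold blockP at e23; omega
    exact h.c12 (AP_symm ((AP_same_block (by omega) (by omega) hwS hw this).2 (AP_symm h.c13)))
  have t00 := (AP_tt (r := a0) (c := b0) (by omega) (by omega)).1 h.c00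
  have t02 := (AP_tt (r := a0) (c := b2) (by omega) (by omega)).1 h.c02
  have t20 := (AP_tt (r := a2) (c := b0) (by omega) (by omega)).1 h.c20
  have t22 := (AP_tt (r := a2) (c := b2) (by omega) (by omega)).1 h.c22
  have t10 : ¬ tA D a1 b0 := fun e => h.c10 ((AP_tt (by omega) (by omega)).2 e)
  have t01 : ¬ tA D a0 b1 := fun e => h.c01 ((AP_tt (by omega) (by omega)).2 e)
  have core := tree_core D 0 a0 a1 a2 b0 b1 b2 ha2 hb2 ha01 ha12 hb01 hb12 t00 t02 t20 t22 t10 t01
  have e03 := (AP_tb (r := a0) (c := b3) (by omega) hwS hw).1 h.c03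
  have e13 := (AP_tb (r := a1) (c := b3) (by omega) hwS hw).1 h.c13
  have e31 := (AP_bt (r := a3) (c := b1) hpS hp (by omega)).1 h.c31
  rw [← hkk] at e03 e13
  rw [sideP_pin hk] at e03 e13 e31
  have hcomb : lvl D a1 + 1 = lvl D a0 ∧ lvl D b1 + 1 = lvl D a0 ∧
      lab D 0 a1 = lab D 0 b1 := by
    unfold PV at e03 e13 e31
    omega
  rcases core.2.2 hcomb.1 hcomb.2.1 hcomb.2.2 with h1 | h1
  · exact absurd ((AP_tt (by omega) (by omega)).2 h1) h.c11
  · exact h1

lemma sideP_small {l t k : ℕ} (hk : k ≤ 4) :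
    sideP l t k ↔ ((k = 1 ∨ k = 3) ∧ (l = 0 ∨ l % 2 = 1)) ∨ ((k = 2 ∨ k = 4) ∧ l % 2 = 0) := by
  unfold sideP
  omega

set_option maxHeartbeats 4000000 in
/-- The other case: the last row and column of a copy lie in the guard blocks: impossible. -/
lemma CoreCopy.guard_case (h : CoreCopy D K a0 a1 a2 a3 b0 b1 b2 b3) (hk : bk D K a3 ≤ 4)
    (hk1 : 1 ≤ bk D K a3) (hk' : bk D K b3 ≤ 4) (hk1' : 1 ≤ bk D K b3)
    (hodd : (bk D K a3 + bk D K b3) % 2 = 1) : False := by
  have hG := sz_le_Gs (D := D) (K := K)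
  have hp := h.p_lt
  have hw := h.w_lt
  have hwS := h.w_ge
  have hpS := h.p_ge
  have ha01 := h.a01
  have ha12 := h.a12
  have ha23 := h.a23
  have hb01 := h.b01
  have hb12 := h.b12
  have hb23 := h.b23
  by_cases ha2 : a2 < sz D
  · -- the row `a2` lies in the tree
    have e23 := (AP_tb ha2 hwS hw).1 h.c23
    rw [sideP_small hk'] at e23
    by_cases hb0 : b0 < sz D
    · have t20 := (AP_tt ha2 hb0).1 h.c20
      have e30 := (AP_bt hpS hp hb0).1 h.c30
      rw [sideP_small hk] at e30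
      have l1 := tA_lvl _ _ _ t20
      have l2 := tA_lvl_pos _ _ _ t20
      rw [← l1] at e30
      omega
    · have m1 : bk D K b0 ≤ bk D K b1 := bk_mono (by omega)
      have m2 : bk D K b1 ≤ bk D K b3 := bk_mono (by omega)
      have e20 := (AP_tb ha2 (by omega) (by omega)).1 h.c20
      have e21 : ¬ sideP (lvl D a2) (lab D 0 a2) (bk D K b1) :=
        fun e => h.c21 ((AP_tb ha2 (by omega) (by omega)).2 e)
      have e30 := (AP_bb hpS hp (c := b0) (by omega) (by omega)).1 h.c30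
      have e31 := (AP_bb hpS hp (c := b1) (by omega) (by omega)).1 h.c31
      rw [sideP_small (by omega)] at e20 e21
      unfold blockP at e30 e31
      omega
  · -- the row `a2` lies in the blocks
    have m23 : bk D K a2 ≤ bk D K a3 := bk_mono (by omega)
    have m12 : bk D K a1 ≤ bk D K a2 := bk_mono (by omega)
    have m01 : bk D K a0 ≤ bk D K a1 := bk_mono (by omega)
    have e23 := (AP_bb (r := a2) (c := b3) (by omega) (by omega) hwS hw).1 h.c23
    by_cases hk2 : bk D K a2 = 0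
    · -- `a2` in `M`
      have hb0 : sz D ≤ b0 := by
        by_contra hb0
        have := (AP_bt (r := a2) (c := b0) (by omega) (by omega) (by omega)).1 h.c20
        rw [hk2] at this
        exact not_sideP_zero this
      have m1 : bk D K b0 ≤ bk D K b1 := bk_mono (by omega)
      have m2 : bk D K b1 ≤ bk D K b3 := bk_mono (by omega)
      have e20 := (AP_bb (r := a2) (c := b0) (by omega) (by omega) hb0 (by omega)).1 h.c20
      have e21 : ¬ blockP (bk D K a2) (bk D K b1) :=
        fun e => h.c21 ((AP_bb (by omega) (by omega) (by omega) (by omega)).2 e)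
      unfold blockP at e20 e21
      omega
    · -- `a2` in the same kind of block as `a3`, which forces `b1` in `M`
      unfold blockP at e23
      have hb1 : sz D ≤ b1 := by
        by_contra hb1
        have e21 : ¬ sideP (lvl D b1) (lab D 0 b1) (bk D K a2) :=
          fun e => h.c21 ((AP_bt (by omega) (by omega) (by omega)).2 e)
        have e31 := (AP_bt hpS hp (c := b1) (by omega)).1 h.c31
        rw [sideP_small (by omega)] at e21 e31
        omega
      have m2 : bk D K b1 ≤ bk D K b2 := bk_mono (by omega)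
      have m3 : bk D K b2 ≤ bk D K b3 := bk_mono (by omega)
      have e21 : ¬ blockP (bk D K a2) (bk D K b1) :=
        fun e => h.c21 ((AP_bb (by omega) (by omega) (by omega) (by omega)).2 e)
      have e31 := (AP_bb (r := a3) (c := b1) hpS hp (by omega) (by omega)).1 h.c31
      have e22 := (AP_bb (r := a2) (c := b2) (by omega) (by omega) (by omega) (by omega)).1 h.c22
      unfold blockP at e21 e31 e22
      have hb1' : bk D K b1 = 0 := by omega
      have hb0 : b0 < sz D := by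
        by_contra hb0
        have m0 : bk D K b0 ≤ bk D K b1 := bk_mono (by omega)
        have e20 := (AP_bb (r := a2) (c := b0) (by omega) (by omega) (by omega) (by omega)).1 h.c20
        unfold blockP at e20
        omega
      -- now the same with the roles of rows and columns exchanged
      have ha1 : sz D ≤ a1 := by
        by_contra ha1
        have e12 : ¬ sideP (lvl D a1) (lab D 0 a1) (bk D K b2) :=
          fun e => h.c12 ((AP_tb (by omega) (by omega) (by omega)).2 e)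
        have e13 := (AP_tb (r := a1) (by omega) hwS hw).1 h.c13
        rw [sideP_small (by omega)] at e12 e13
        omega
      have e12 : ¬ blockP (bk D K a1) (bk D K b2) :=
        fun e => h.c12 ((AP_bb (by omega) (by omega) (by omega) (by omega)).2 e)
      have e13 := (AP_bb (r := a1) (c := b3) (by omega) (by omega) hwS hw).1 h.c13
      unfold blockP at e12 e13
      have ha1' : bk D K a1 = 0 := by omega
      have ha0 : a0 < sz D := by
        by_contra ha0
        have e02 := (AP_bb (r := a0) (c := b2) (by omega) (by omega) (by omega) (by omega)).1 h.c02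
        unfold blockP at e02
        omega
      have t00 := (AP_tt ha0 hb0).1 h.c00
      have e02 := (AP_tb (r := a0) (c := b2) ha0 (by omega) (by omega)).1 h.c02
      have e30 := (AP_bt hpS hp hb0).1 h.c30
      rw [sideP_small (by omega)] at e02 e30
      have l1 := tA_lvl _ _ _ t00
      have l2 := tA_lvl_pos _ _ _ t00
      rw [← l1] at e30
      omega

/-- Classification of copies: the second row and the second column are forced by the first. -/
theorem CoreCopy.classify (h : CoreCopy D K a0 a1 a2 a3 b0 b1 b2 b3) :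
    a1 = a0 + 1 ∧ b1 = b0 + 1 := by
  have e33 := (AP_bb h.p_ge h.p_lt h.w_ge h.w_lt).1 h.c33
  have h1 := h.p_ne
  have h2 := h.w_ne
  unfold blockP at e33
  by_cases hk : 5 ≤ bk D K a3
  · exact h.pin_case hk (by omega)
  · exact (h.guard_case (by omega) (by omega) (by omega) (by omega) (by omega)).elim

end Crest.Agent.S0066Aux
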