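import Mathlib

set_option autoImplicit false

/-!
# Nested bracket tree (helper for S0066)

A subtree of level `a` occupies `sz a` consecutive positions:
`2 ^ a` opening brackets, the two subtrees of level `a - 1`, then `2 ^ a` closing brackets
(level `0`: one opening bracket, one inner position, one closing bracket).
-/

namespace Crest.Agent.S0066Aux

/-- number of positions of a subtree of level `a` -/
def sz : ℕ → ℕ
  | 0 => 3
  | a + 1 => 2 * 2 ^ (a + 1) + 2 * sz a

lemma sz_zero : sz 0 = 3 := rfl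

lemma sz_succ (a : ℕ) : sz (a + 1) = 2 * 2 ^ (a + 1) + 2 * sz a := rfl

lemma sz_ge (a : ℕ) : 2 * 2 ^ a + 1 ≤ sz a := by
  cases a with
  | zero => simp [sz]
  | succ a =>
    have : 1 ≤ sz a := by
      cases a with
      | zero => simp [sz]
      | succ b => rw [sz_succ]; have := Nat.one_le_two_pow (n := b + 1); omega
    rw [sz_succ]; omega

/-- Two positions are joined iff they are brackets of the same node. -/
def tA : ℕ → ℕ → ℕ → Prop
  | 0, r, c => r ≠ 1 ∧ c ≠ 1
  | a + 1, r, c =>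
      ((r < 2 ^ (a + 1) ∨ 2 ^ (a + 1) + 2 * sz a ≤ r) ∧
        (c < 2 ^ (a + 1) ∨ 2 ^ (a + 1) + 2 * sz a ≤ c)) ∨
      (2 ^ (a + 1) ≤ r ∧ r < 2 ^ (a + 1) + sz a ∧ 2 ^ (a + 1) ≤ c ∧ c < 2 ^ (a + 1) + sz a ∧
        tA a (r - 2 ^ (a + 1)) (c - 2 ^ (a + 1))) ∨
      (2 ^ (a + 1) + sz a ≤ r ∧ r < 2 ^ (a + 1) + 2 * sz a ∧
        2 ^ (a + 1) + sz a ≤ c ∧ c < 2 ^ (a + 1) + 2 * sz a ∧
        tA a (r - 2 ^ (a + 1) - sz a) (c - 2 ^ (a + 1) - sz a))

/-- The level of a position: `0` for inner positions of leaves, `a + 1` for brackets of a node of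
level `a`. -/
def lvl : ℕ → ℕ → ℕ
  | 0, r => if r = 1 then 0 else 1
  | a + 1, r =>
      if r < 2 ^ (a + 1) ∨ 2 ^ (a + 1) + 2 * sz a ≤ r then a + 2
      else if r < 2 ^ (a + 1) + sz a then lvl a (r - 2 ^ (a + 1))
      else lvl a (r - 2 ^ (a + 1) - sz a)

/-- The label of a position: whether its node is a left (`0`) or right (`1`) child;
`b` is the label of the root of the subtree. -/
def lab : ℕ → ℕ → ℕ → ℕ
  | 0, b, r => if r = 1 then 0 else b
  | a + 1, b, r =>
      if r < 2 ^ (a + 1) ∨ 2 ^ (a + 1) + 2 * sz a ≤ r then b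
      else if r < 2 ^ (a + 1) + sz a then lab a 0 (r - 2 ^ (a + 1))
      else lab a 1 (r - 2 ^ (a + 1) - sz a)

lemma tA_succ (a r c : ℕ) : tA (a + 1) r c ↔
      ((r < 2 ^ (a + 1) ∨ 2 ^ (a + 1) + 2 * sz a ≤ r) ∧
        (c < 2 ^ (a + 1) ∨ 2 ^ (a + 1) + 2 * sz a ≤ c)) ∨
      (2 ^ (a + 1) ≤ r ∧ r < 2 ^ (a + 1) + sz a ∧ 2 ^ (a + 1) ≤ c ∧ c < 2 ^ (a + 1) + sz a ∧
        tA a (r - 2 ^ (a + 1)) (c - 2 ^ (a + 1))) ∨
      (2 ^ (a + 1) + sz a ≤ r ∧ r < 2 ^ (a + 1) + 2 * sz a ∧
        2 ^ (a + 1) + sz a ≤ c ∧ c < 2 ^ (a + 1) + 2 * sz a ∧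
        tA a (r - 2 ^ (a + 1) - sz a) (c - 2 ^ (a + 1) - sz a)) := Iff.rfl

lemma lvl_succ_top (a r : ℕ) (h : r < 2 ^ (a + 1) ∨ 2 ^ (a + 1) + 2 * sz a ≤ r) :
    lvl (a + 1) r = a + 2 := by
  simp [lvl, h]

lemma lvl_succ_left (a r : ℕ) (h1 : 2 ^ (a + 1) ≤ r) (h2 : r < 2 ^ (a + 1) + sz a) :
    lvl (a + 1) r = lvl a (r - 2 ^ (a + 1)) := by
  have h : ¬ (r < 2 ^ (a + 1) ∨ 2 ^ (a + 1) + 2 * sz a ≤ r) := by omega
  simp only [lvl, h, if_false, h2, if_true]

lemma lvl_succ_right (a r : ℕ) (h1 : 2 ^ (a + 1) + sz a ≤ r) (h2 : r < 2 ^ (a + 1) + 2 * sz a) :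
    lvl (a + 1) r = lvl a (r - 2 ^ (a + 1) - sz a) := by
  have h : ¬ (r < 2 ^ (a + 1) ∨ 2 ^ (a + 1) + 2 * sz a ≤ r) := by omega
  have h' : ¬ (r < 2 ^ (a + 1) + sz a) := by omega
  simp only [lvl, h, if_false, h']

lemma lab_succ_top (a b r : ℕ) (h : r < 2 ^ (a + 1) ∨ 2 ^ (a + 1) + 2 * sz a ≤ r) :
    lab (a + 1) b r = b := by
  simp [lab, h]

lemma lab_succ_left (a b r : ℕ) (h1 : 2 ^ (a + 1) ≤ r) (h2 : r < 2 ^ (a + 1) + sz a) :
    lab (a + 1) b r = lab a 0 (r - 2 ^ (a + 1)) := by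
  have h : ¬ (r < 2 ^ (a + 1) ∨ 2 ^ (a + 1) + 2 * sz a ≤ r) := by omega
  simp only [lab, h, if_false, h2, if_true]

lemma lab_succ_right (a b r : ℕ) (h1 : 2 ^ (a + 1) + sz a ≤ r) (h2 : r < 2 ^ (a + 1) + 2 * sz a) :
    lab (a + 1) b r = lab a 1 (r - 2 ^ (a + 1) - sz a) := by
  have h : ¬ (r < 2 ^ (a + 1) ∨ 2 ^ (a + 1) + 2 * sz a ≤ r) := by omega
  have h' : ¬ (r < 2 ^ (a + 1) + sz a) := by omega
  simp only [lab, h, if_false, h']

lemma tA_symm (a : ℕ) : ∀ r c, tA a r c → tA a c r := by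
  induction a with
  | zero => intro r c h; exact ⟨h.2, h.1⟩
  | succ a ih =>
    intro r c h
    rw [tA_succ] at h ⊢
    rcases h with h | h | h
    · exact Or.inl ⟨h.2, h.1⟩
    · obtain ⟨h1, h2, h3, h4, h5⟩ := h
      exact Or.inr (Or.inl ⟨h3, h4, h1, h2, ih _ _ h5⟩)
    · obtain ⟨h1, h2, h3, h4, h5⟩ := h
      exact Or.inr (Or.inr ⟨h3, h4, h1, h2, ih _ _ h5⟩)

lemma tA_comm (a r c : ℕ) : tA a r c ↔ tA a c r := ⟨tA_symm a r c, tA_symm a c r⟩

/-- `tA` is a disjoint union of bicliques. -/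
lemma tA_trans3 (a : ℕ) : ∀ r c r' c', tA a r c → tA a r' c → tA a r' c' → tA a r c' := by
  induction a with
  | zero => intro r c r' c' h1 h2 h3; exact ⟨h1.1, h3.2⟩
  | succ a ih =>
    intro r c r' c' h1 h2 h3
    rw [tA_succ] at h1 h2 h3 ⊢
    rcases h1 with h1 | h1 | h1 <;> rcases h2 with h2 | h2 | h2 <;> rcases h3 with h3 | h3 | h3
    all_goals first
      | (exfalso; omega)
      | (left; omega)
      | (right; left
         obtain ⟨a1, a2, a3, a4, a5⟩ := h1
         obtain ⟨b1, b2, b3, b4, b5⟩ := h2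
         obtain ⟨c1, c2, c3, c4, c5⟩ := h3
         exact ⟨a1, a2, c3, c4, ih _ _ _ _ a5 b5 c5⟩)
      | (right; right
         obtain ⟨a1, a2, a3, a4, a5⟩ := h1
         obtain ⟨b1, b2, b3, b4, b5⟩ := h2
         obtain ⟨c1, c2, c3, c4, c5⟩ := h3
         exact ⟨a1, a2, c3, c4, ih _ _ _ _ a5 b5 c5⟩)

lemma tA_lvl (a : ℕ) : ∀ r c, tA a r c → lvl a r = lvl a c := by
  induction a with
  | zero =>
    intro r c h
    simp [lvl, h.1, h.2]
  | succ a ih =>
    intro r c h
    rw [tA_succ] at h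
    rcases h with h | h | h
    · rw [lvl_succ_top _ _ h.1, lvl_succ_top _ _ h.2]
    · obtain ⟨h1, h2, h3, h4, h5⟩ := h
      rw [lvl_succ_left _ _ h1 h2, lvl_succ_left _ _ h3 h4]
      exact ih _ _ h5
    · obtain ⟨h1, h2, h3, h4, h5⟩ := h
      rw [lvl_succ_right _ _ h1 h2, lvl_succ_right _ _ h3 h4]
      exact ih _ _ h5

lemma tA_lab (a : ℕ) : ∀ b r c, tA a r c → lab a b r = lab a b c := by
  induction a with
  | zero =>
    intro b r c h
    simp [lab, h.1, h.2]
  | succ a ih =>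
    intro b r c h
    rw [tA_succ] at h
    rcases h with h | h | h
    · rw [lab_succ_top _ _ _ h.1, lab_succ_top _ _ _ h.2]
    · obtain ⟨h1, h2, h3, h4, h5⟩ := h
      rw [lab_succ_left _ _ _ h1 h2, lab_succ_left _ _ _ h3 h4]
      exact ih _ _ _ h5
    · obtain ⟨h1, h2, h3, h4, h5⟩ := h
      rw [lab_succ_right _ _ _ h1 h2, lab_succ_right _ _ _ h3 h4]
      exact ih _ _ _ h5

/-- Joined positions are brackets, so their level is positive. -/
lemma tA_lvl_pos (a : ℕ) : ∀ r c, tA a r c → 1 ≤ lvl a r := by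
  induction a with
  | zero =>
    intro r c h
    simp [lvl, h.1]
  | succ a ih =>
    intro r c h
    rw [tA_succ] at h
    rcases h with h | h | h
    · rw [lvl_succ_top _ _ h.1]; omega
    · obtain ⟨h1, h2, h3, h4, h5⟩ := h
      rw [lvl_succ_left _ _ h1 h2]
      exact ih _ _ h5
    · obtain ⟨h1, h2, h3, h4, h5⟩ := h
      rw [lvl_succ_right _ _ h1 h2]
      exact ih _ _ h5

lemma lvl_le (a : ℕ) : ∀ r, lvl a r ≤ a + 1 := by
  induction a with
  | zero =>
    intro r
    simp only [lvl]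
    split_ifs <;> omega
  | succ a ih =>
    intro r
    by_cases h : r < 2 ^ (a + 1) ∨ 2 ^ (a + 1) + 2 * sz a ≤ r
    · rw [lvl_succ_top _ _ h]
    · by_cases h2 : r < 2 ^ (a + 1) + sz a
      · rw [lvl_succ_left _ _ (by omega) h2]
        have := ih (r - 2 ^ (a + 1)); omega
      · rw [lvl_succ_right _ _ (by omega) (by omega)]
        have := ih (r - 2 ^ (a + 1) - sz a); omega

/-- `r` is a top bracket of the subtree of level `a`. -/
def Top (a r : ℕ) : Prop := r < 2 ^ a ∨ sz a ≤ r + 2 ^ a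

lemma lvl_top (a : ℕ) (b r : ℕ) (hr : r < sz a) (h : lvl a r = a + 1) :
    Top a r ∧ lab a b r = b := by
  cases a with
  | zero =>
    have h1 : r ≠ 1 := by
      intro h1; simp [lvl, h1] at h
    have h2 : sz 0 = 3 := rfl
    refine ⟨?_, by simp [lab, h1]⟩
    unfold Top
    rw [h2]
    norm_num
    omega
  | succ a =>
    by_cases h0 : r < 2 ^ (a + 1) ∨ 2 ^ (a + 1) + 2 * sz a ≤ r
    · refine ⟨?_, lab_succ_top _ _ _ h0⟩
      unfold Top
      rw [sz_succ]
      omega
    · exfalso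
      by_cases h2 : r < 2 ^ (a + 1) + sz a
      · rw [lvl_succ_left _ _ (by omega) h2] at h
        have := lvl_le a (r - 2 ^ (a + 1)); omega
      · rw [lvl_succ_right _ _ (by omega) (by omega)] at h
        have := lvl_le a (r - 2 ^ (a + 1) - sz a); omega

lemma tA_of_top (a r c : ℕ) (hr : r < sz a) (hc : c < sz a) (h1 : Top a r) (h2 : Top a c) :
    tA a r c := by
  cases a with
  | zero =>
    have h3 : sz 0 = 3 := rfl
    unfold Top at h1 h2
    rw [h3] at h1 h2 hr hc
    norm_num at h1 h2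
    exact ⟨by omega, by omega⟩
  | succ a =>
    rw [tA_succ]
    left
    unfold Top at h1 h2
    rw [sz_succ] at h1 h2
    constructor <;> omega

/-- The core fact about the tree part of a copy: positions strictly between two brackets of a node
lie strictly below that node, and if two such positions have the level just below and the same
label then they are joined (or we are at a leaf). -/
lemma tree_core (a : ℕ) : ∀ (b t₁ x t₂ z₁ y z₂ : ℕ),
    t₂ < sz a → z₂ < sz a → t₁ < x → x < t₂ → z₁ < y → y < z₂ →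
    tA a t₁ z₁ → tA a t₁ z₂ → tA a t₂ z₁ → tA a t₂ z₂ → ¬ tA a x z₁ → ¬ tA a t₁ y →
    lvl a x < lvl a t₁ ∧ lvl a y < lvl a t₁ ∧
      (lvl a x + 1 = lvl a t₁ → lvl a y + 1 = lvl a t₁ → lab a b x = lab a b y →
        tA a x y ∨ (x = t₁ + 1 ∧ y = z₁ + 1)) := by
  induction a with
  | zero =>
    intro b t₁ x t₂ z₁ y z₂ h1 h2 h3 h4 h5 h6 h7 h8 h9 h10 h11 h12
    have h0 : sz 0 = 3 := rfl
    rw [h0] at h1 h2
    have hx : x = 1 := by omega
    have hy : y = 1 := by omega
    have ht : t₁ = 0 := by omega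
    have hz : z₁ = 0 := by omega
    subst hx hy ht hz
    simp [lvl]
  | succ a ih =>
    intro b t₁ x t₂ z₁ y z₂ h1 h2 h3 h4 h5 h6 h7 h8 h9 h10 h11 h12
    rw [sz_succ] at h1 h2
    rw [tA_succ] at h7 h8 h9 h10 h11 h12
    -- abbreviations for omega
    rcases h7 with h7 | h7 | h7
    · -- top brackets
      have hz₂ : z₂ < 2 ^ (a + 1) ∨ 2 ^ (a + 1) + 2 * sz a ≤ z₂ := by
        rcases h8 with h8 | h8 | h8
        · exact h8.2
        · omega
        · omega
      have ht₂ : t₂ < 2 ^ (a + 1) ∨ 2 ^ (a + 1) + 2 * sz a ≤ t₂ := by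
        rcases h9 with h9 | h9 | h9
        · exact h9.1
        · omega
        · omega
      have hxtop : ¬ (x < 2 ^ (a + 1) ∨ 2 ^ (a + 1) + 2 * sz a ≤ x) := by
        intro hx
        exact h11 (Or.inl ⟨hx, h7.2⟩)
      have hytop : ¬ (y < 2 ^ (a + 1) ∨ 2 ^ (a + 1) + 2 * sz a ≤ y) := by
        intro hy
        exact h12 (Or.inl ⟨h7.1, hy⟩)
      have hlt : lvl (a + 1) t₁ = a + 2 := lvl_succ_top _ _ h7.1
      rw [hlt]
      have hxl : lvl (a + 1) x ≤ a + 1 ∧ ((lvl (a + 1) x + 1 = a + 2) →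
          ∃ (c : ℕ) (x' : ℕ), x' < sz a ∧ Top a x' ∧ lab (a + 1) b x = c ∧
            ((c = 0 ∧ x = 2 ^ (a + 1) + x') ∨ (c = 1 ∧ x = 2 ^ (a + 1) + sz a + x'))) := by
        by_cases h2' : x < 2 ^ (a + 1) + sz a
        · rw [lvl_succ_left _ _ (by omega) h2']
          have := lvl_le a (x - 2 ^ (a + 1))
          refine ⟨by omega, fun hh => ?_⟩
          have hl := lvl_top a 0 (x - 2 ^ (a + 1)) (by omega) (by omega)
          refine ⟨0, x - 2 ^ (a + 1), by omega, hl.1, ?_, Or.inl ⟨rfl, by omega⟩⟩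
          rw [lab_succ_left _ _ _ (by omega) h2']
          exact hl.2
        · have hb : x < 2 ^ (a + 1) + 2 * sz a := by omega
          rw [lvl_succ_right _ _ (by omega) hb]
          have := lvl_le a (x - 2 ^ (a + 1) - sz a)
          refine ⟨by omega, fun hh => ?_⟩
          have hl := lvl_top a 1 (x - 2 ^ (a + 1) - sz a) (by omega) (by omega)
          refine ⟨1, x - 2 ^ (a + 1) - sz a, by omega, hl.1, ?_, Or.inr ⟨rfl, by omega⟩⟩
          rw [lab_succ_right _ _ _ (by omega) hb]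
          exact hl.2
      have hyl : lvl (a + 1) y ≤ a + 1 ∧ ((lvl (a + 1) y + 1 = a + 2) →
          ∃ (c : ℕ) (x' : ℕ), x' < sz a ∧ Top a x' ∧ lab (a + 1) b y = c ∧
            ((c = 0 ∧ y = 2 ^ (a + 1) + x') ∨ (c = 1 ∧ y = 2 ^ (a + 1) + sz a + x'))) := by
        by_cases h2' : y < 2 ^ (a + 1) + sz a
        · rw [lvl_succ_left _ _ (by omega) h2']
          have := lvl_le a (y - 2 ^ (a + 1))
          refine ⟨by omega, fun hh => ?_⟩
          have hl := lvl_top a 0 (y - 2 ^ (a + 1)) (by omega) (by omega)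
          refine ⟨0, y - 2 ^ (a + 1), by omega, hl.1, ?_, Or.inl ⟨rfl, by omega⟩⟩
          rw [lab_succ_left _ _ _ (by omega) h2']
          exact hl.2
        · have hb : y < 2 ^ (a + 1) + 2 * sz a := by omega
          rw [lvl_succ_right _ _ (by omega) hb]
          have := lvl_le a (y - 2 ^ (a + 1) - sz a)
          refine ⟨by omega, fun hh => ?_⟩
          have hl := lvl_top a 1 (y - 2 ^ (a + 1) - sz a) (by omega) (by omega)
          refine ⟨1, y - 2 ^ (a + 1) - sz a, by omega, hl.1, ?_, Or.inr ⟨rfl, by omega⟩⟩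
          rw [lab_succ_right _ _ _ (by omega) hb]
          exact hl.2
      refine ⟨by omega, by omega, fun hx hy hlab => Or.inl ?_⟩
      obtain ⟨c, x', hx'1, hx'2, hx'3, hx'4⟩ := hxl.2 hx
      obtain ⟨c', y', hy'1, hy'2, hy'3, hy'4⟩ := hyl.2 hy
      have hcc : c = c' := by rw [← hx'3, ← hy'3, hlab]
      subst hcc
      have hT := tA_of_top a x' y' hx'1 hy'1 hx'2 hy'2
      rw [tA_succ]
      rcases hx'4 with ⟨hc, hx4⟩ | ⟨hc, hx4⟩ <;> rcases hy'4 with ⟨hc', hy4⟩ | ⟨hc', hy4⟩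
      · right; left
        subst hx4 hy4
        refine ⟨by omega, by omega, by omega, by omega, ?_⟩
        simpa using hT
      · omega
      · omega
      · right; right
        subst hx4 hy4
        refine ⟨by omega, by omega, by omega, by omega, ?_⟩
        have e1 : 2 ^ (a + 1) + sz a + x' - 2 ^ (a + 1) - sz a = x' := by omega
        have e2 : 2 ^ (a + 1) + sz a + y' - 2 ^ (a + 1) - sz a = y' := by omega
        rw [e1, e2]; exact hT
    · -- left child
      obtain ⟨a1, a2, a3, a4, a5⟩ := h7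
      have h8' : 2 ^ (a + 1) ≤ z₂ ∧ z₂ < 2 ^ (a + 1) + sz a ∧
          tA a (t₁ - 2 ^ (a + 1)) (z₂ - 2 ^ (a + 1)) := by
        rcases h8 with h8 | h8 | h8
        · omega
        · exact ⟨h8.2.2.1, h8.2.2.2.1, h8.2.2.2.2⟩
        · omega
      have h9' : 2 ^ (a + 1) ≤ t₂ ∧ t₂ < 2 ^ (a + 1) + sz a ∧
          tA a (t₂ - 2 ^ (a + 1)) (z₁ - 2 ^ (a + 1)) := by
        rcases h9 with h9 | h9 | h9
        · omega
        · exact ⟨h9.1, h9.2.1, h9.2.2.2.2⟩
        · omega
      have h10' : tA a (t₂ - 2 ^ (a + 1)) (z₂ - 2 ^ (a + 1)) := by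
        rcases h10 with h10 | h10 | h10
        · omega
        · exact h10.2.2.2.2
        · omega
      have h11' : ¬ tA a (x - 2 ^ (a + 1)) (z₁ - 2 ^ (a + 1)) := fun hh =>
        h11 (Or.inr (Or.inl ⟨by omega, by omega, a3, a4, hh⟩))
      have h12' : ¬ tA a (t₁ - 2 ^ (a + 1)) (y - 2 ^ (a + 1)) := fun hh =>
        h12 (Or.inr (Or.inl ⟨a1, a2, by omega, by omega, hh⟩))
      have key := ih 0 (t₁ - 2 ^ (a + 1)) (x - 2 ^ (a + 1)) (t₂ - 2 ^ (a + 1))
        (z₁ - 2 ^ (a + 1)) (y - 2 ^ (a + 1)) (z₂ - 2 ^ (a + 1))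
        (by omega) (by omega) (by omega) (by omega) (by omega) (by omega) a5 h8'.2.2 h9'.2.2 h10'
        h11' h12'
      rw [lvl_succ_left _ _ a1 a2, lvl_succ_left a x (by omega) (by omega),
        lvl_succ_left a y (by omega) (by omega),
        lab_succ_left a b x (by omega) (by omega), lab_succ_left a b y (by omega) (by omega)]
      refine ⟨key.1, key.2.1, fun p1 p2 p3 => ?_⟩
      rcases key.2.2 p1 p2 p3 with hh | ⟨hh1, hh2⟩
      · left
        rw [tA_succ]
        exact Or.inr (Or.inl ⟨by omega, by omega, by omega, by omega, hh⟩)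
      · right; constructor <;> omega
    · -- right child
      obtain ⟨a1, a2, a3, a4, a5⟩ := h7
      have h8' : 2 ^ (a + 1) + sz a ≤ z₂ ∧ z₂ < 2 ^ (a + 1) + 2 * sz a ∧
          tA a (t₁ - 2 ^ (a + 1) - sz a) (z₂ - 2 ^ (a + 1) - sz a) := by
        rcases h8 with h8 | h8 | h8
        · omega
        · omega
        · exact ⟨h8.2.2.1, h8.2.2.2.1, h8.2.2.2.2⟩
      have h9' : 2 ^ (a + 1) + sz a ≤ t₂ ∧ t₂ < 2 ^ (a + 1) + 2 * sz a ∧
          tA a (t₂ - 2 ^ (a + 1) - sz a) (z₁ - 2 ^ (a + 1) - sz a) := by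
        rcases h9 with h9 | h9 | h9
        · omega
        · omega
        · exact ⟨h9.1, h9.2.1, h9.2.2.2.2⟩
      have h10' : tA a (t₂ - 2 ^ (a + 1) - sz a) (z₂ - 2 ^ (a + 1) - sz a) := by
        rcases h10 with h10 | h10 | h10
        · omega
        · omega
        · exact h10.2.2.2.2
      have h11' : ¬ tA a (x - 2 ^ (a + 1) - sz a) (z₁ - 2 ^ (a + 1) - sz a) := fun hh =>
        h11 (Or.inr (Or.inr ⟨by omega, by omega, a3, a4, hh⟩))
      have h12' : ¬ tA a (t₁ - 2 ^ (a + 1) - sz a) (y - 2 ^ (a + 1) - sz a) := fun hh =>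
        h12 (Or.inr (Or.inr ⟨a1, a2, by omega, by omega, hh⟩))
      have key := ih 1 (t₁ - 2 ^ (a + 1) - sz a) (x - 2 ^ (a + 1) - sz a) (t₂ - 2 ^ (a + 1) - sz a)
        (z₁ - 2 ^ (a + 1) - sz a) (y - 2 ^ (a + 1) - sz a) (z₂ - 2 ^ (a + 1) - sz a)
        (by omega) (by omega) (by omega) (by omega) (by omega) (by omega) a5 h8'.2.2 h9'.2.2 h10'
        h11' h12'
      rw [lvl_succ_right _ _ a1 a2, lvl_succ_right a x (by omega) (by omega),
        lvl_succ_right a y (by omega) (by omega),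
        lab_succ_right a b x (by omega) (by omega), lab_succ_right a b y (by omega) (by omega)]
      refine ⟨key.1, key.2.1, fun p1 p2 p3 => ?_⟩
      rcases key.2.2 p1 p2 p3 with hh | ⟨hh1, hh2⟩
      · left
        rw [tA_succ]
        exact Or.inr (Or.inr ⟨by omega, by omega, by omega, by omega, hh⟩)
      · right; constructor <;> omega

/-- Nodes inside a tree of level `A` whose root has label `B`: `(a, o, b)` means a node of level
`a` occupying the positions from `o` on, with label `b`. -/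
inductive IsNodeIn : ℕ → ℕ → ℕ → ℕ → ℕ → Prop
  | self (A B : ℕ) : IsNodeIn A B A 0 B
  | inL {A B a o b : ℕ} : IsNodeIn A 0 a o b → IsNodeIn (A + 1) B a (o + 2 ^ (A + 1)) b
  | inR {A B a o b : ℕ} : IsNodeIn A 1 a o b → IsNodeIn (A + 1) B a (o + 2 ^ (A + 1) + sz A) b

/-- Brackets of the node of level `a` at offset `o`. -/
def Br (a o r : ℕ) : Prop := (o ≤ r ∧ r < o + 2 ^ a) ∨ (o + sz a ≤ r + 2 ^ a ∧ r < o + sz a)

lemma node_fit {A B a o b : ℕ} (h : IsNodeIn A B a o b) : o + sz a ≤ sz A := by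
  induction h with
  | self A B => omega
  | @inL A B a o b _ ih => rw [sz_succ]; omega
  | @inR A B a o b _ ih => rw [sz_succ]; omega

lemma node_tA {A B a o b : ℕ} (h : IsNodeIn A B a o b) :
    ∀ r c, Br a o r → Br a o c → tA A r c := by
  induction h with
  | self A B =>
    intro r c hr hc
    have := sz_ge A
    apply tA_of_top
    · rcases hr with hr | hr <;> omega
    · rcases hc with hc | hc <;> omega
    · unfold Top; rcases hr with hr | hr <;> omega
    · unfold Top; rcases hc with hc | hc <;> omega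
  | @inL A B a o b h0 ih =>
    intro r c hr hc
    have hfit := node_fit h0
    have := sz_ge a
    rw [tA_succ]
    right; left
    have hr' : Br a o (r - 2 ^ (A + 1)) := by
      unfold Br at hr ⊢; rcases hr with hr | hr <;> omega
    have hc' : Br a o (c - 2 ^ (A + 1)) := by
      unfold Br at hc ⊢; rcases hc with hc | hc <;> omega
    refine ⟨?_, ?_, ?_, ?_, ih _ _ hr' hc'⟩ <;> unfold Br at hr hc <;>
      first
        | (rcases hr with hr | hr <;> omega)
        | (rcases hc with hc | hc <;> omega)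
  | @inR A B a o b h0 ih =>
    intro r c hr hc
    have hfit := node_fit h0
    have := sz_ge a
    rw [tA_succ]
    right; right
    have hr' : Br a o (r - 2 ^ (A + 1) - sz A) := by
      unfold Br at hr ⊢; rcases hr with hr | hr <;> omega
    have hc' : Br a o (c - 2 ^ (A + 1) - sz A) := by
      unfold Br at hc ⊢; rcases hc with hc | hc <;> omega
    refine ⟨?_, ?_, ?_, ?_, ih _ _ hr' hc'⟩ <;> unfold Br at hr hc <;>
      first
        | (rcases hr with hr | hr <;> omega)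
        | (rcases hc with hc | hc <;> omega)

lemma node_lvl_lab {A B a o b : ℕ} (h : IsNodeIn A B a o b) :
    ∀ r, Br a o r → lvl A r = a + 1 ∧ lab A B r = b := by
  induction h with
  | self A B =>
    intro r hr
    cases A with
    | zero =>
      have h0 : sz 0 = 3 := rfl
      unfold Br at hr
      rw [h0] at hr
      norm_num at hr
      have h1 : r ≠ 1 := by omega
      simp [lvl, lab, h1]
    | succ A =>
      have h0 := sz_succ A
      unfold Br at hr
      have h1 : r < 2 ^ (A + 1) ∨ 2 ^ (A + 1) + 2 * sz A ≤ r := by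
        rcases hr with hr | hr <;> omega
      exact ⟨lvl_succ_top _ _ h1, lab_succ_top _ _ _ h1⟩
  | @inL A B a o b h0 ih =>
    intro r hr
    have hfit := node_fit h0
    have := sz_ge a
    have hr' : Br a o (r - 2 ^ (A + 1)) := by
      unfold Br at hr ⊢; rcases hr with hr | hr <;> omega
    have h1 : 2 ^ (A + 1) ≤ r := by unfold Br at hr; rcases hr with hr | hr <;> omega
    have h2 : r < 2 ^ (A + 1) + sz A := by unfold Br at hr; rcases hr with hr | hr <;> omega
    rw [lvl_succ_left _ _ h1 h2, lab_succ_left _ _ _ h1 h2]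
    exact ih _ hr'
  | @inR A B a o b h0 ih =>
    intro r hr
    have hfit := node_fit h0
    have := sz_ge a
    have hr' : Br a o (r - 2 ^ (A + 1) - sz A) := by
      unfold Br at hr ⊢; rcases hr with hr | hr <;> omega
    have h1 : 2 ^ (A + 1) + sz A ≤ r := by unfold Br at hr; rcases hr with hr | hr <;> omega
    have h2 : r < 2 ^ (A + 1) + 2 * sz A := by unfold Br at hr; rcases hr with hr | hr <;> omega
    rw [lvl_succ_right _ _ h1 h2, lab_succ_right _ _ _ h1 h2]
    exact ih _ hr'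

/-- The inner position of a leaf. -/
lemma node_leaf {A B a o b : ℕ} (h : IsNodeIn A B a o b) (ha : a = 0) :
    lvl A (o + 1) = 0 ∧ lab A B (o + 1) = 0 := by
  induction h with
  | self A B =>
    subst ha
    simp [lvl, lab]
  | @inL A B a o b h0 ih =>
    have hfit := node_fit h0
    subst ha
    have h3 : sz 0 = 3 := rfl
    have e : o + 2 ^ (A + 1) + 1 - 2 ^ (A + 1) = o + 1 := by omega
    rw [lvl_succ_left _ _ (by omega) (by omega), lab_succ_left _ _ _ (by omega) (by omega), e]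
    exact ih rfl
  | @inR A B a o b h0 ih =>
    have hfit := node_fit h0
    subst ha
    have h3 : sz 0 = 3 := rfl
    have e : o + 2 ^ (A + 1) + sz A + 1 - 2 ^ (A + 1) - sz A = o + 1 := by omega
    rw [lvl_succ_right _ _ (by omega) (by omega), lab_succ_right _ _ _ (by omega) (by omega), e]
    exact ih rfl

lemma node_childL {A B a' o b : ℕ} (h : IsNodeIn A B a' o b) :
    ∀ a, a' = a + 1 → IsNodeIn A B a (o + 2 ^ (a + 1)) 0 := by
  induction h with
  | self A B =>
    intro a ha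
    subst ha
    exact IsNodeIn.inL (IsNodeIn.self a 0)
  | @inL A B a' o b h0 ih =>
    intro a ha
    have := IsNodeIn.inL (B := B) (ih a ha)
    convert this using 1
    ring
  | @inR A B a' o b h0 ih =>
    intro a ha
    have := IsNodeIn.inR (B := B) (ih a ha)
    convert this using 1
    ring

lemma node_childR {A B a' o b : ℕ} (h : IsNodeIn A B a' o b) :
    ∀ a, a' = a + 1 → IsNodeIn A B a (o + 2 ^ (a + 1) + sz a) 1 := by
  induction h with
  | self A B =>
    intro a ha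
    subst ha
    exact IsNodeIn.inR (IsNodeIn.self a 1)
  | @inL A B a' o b h0 ih =>
    intro a ha
    have := IsNodeIn.inL (B := B) (ih a ha)
    convert this using 1
    ring
  | @inR A B a' o b h0 ih =>
    intro a ha
    have := IsNodeIn.inR (B := B) (ih a ha)
    convert this using 1
    ring

lemma IsNodeIn_level_le {A B a o b : ℕ} (h : IsNodeIn A B a o b) : a ≤ A := by
  induction h with
  | self A B => omega
  | @inL A B a o b _ ih => omega
  | @inR A B a o b _ ih => omega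

end Crest.Agent.S0066Aux
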